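import Vale.Agent.P228S.Base

namespace Vale.Agent.P228S

open MeasureTheory Set Metric Filter Topology Vale.Agent.Lib.Degree Vale.Agent.P228

variable {ι : Type} [Fintype ι] [DecidableEq ι]

theorem exists_avgL {p : ℕ} [Fact p.Prime] {a : ℤ_[p] → (ι → ℝ) → (ι → ℝ)} {U : Set (ι → ℝ)}
    (hA : IsLoc a U) {B : ℝ} (hB : ∀ t x, ‖a t x‖ ≤ B) {R C β : ℝ} (hreg : ∀ t, Reg (a t) R C β)
    {ψ : (ι → ℝ) → (ι → ℝ)} (hψ : ContDiff ℝ 1 ψ) :
    ∃ φ : (ι → ℝ) → (ι → ℝ), Continuous φ ∧ (∀ t, ∀ x ∈ U, φ (a t x) = φ x) ∧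
      (∃ C', Reg φ R C' β) ∧ (∀ x, (∀ t, a t x = x) → φ x = ψ x) ∧
      ∀ (l : (ι → ℝ) →L[ℝ] ℝ) (c : ℝ), ∀ x ∈ U, (∀ t, c ≤ l (ψ (a t x))) →
        c ≤ l (φ x) ∧ (l (φ x) = c → l (ψ x) = c) := by
  borelize ℤ_[p]
  obtain ⟨μ, hμ⟩ : ∃ μ : Measure ℤ_[p], μ = Measure.addHaarMeasure ⊤ := ⟨_, rfl⟩
  haveI : μ.IsAddHaarMeasure := by rw [hμ]; infer_instance
  haveI : IsProbabilityMeasure μ := ⟨by
    rw [hμ, ← TopologicalSpace.PositiveCompacts.coe_top]
    exact Measure.addHaarMeasure_self⟩
  have c0 : Continuous fun q : ℤ_[p] × (ι → ℝ) => ψ (a q.1 q.2) := hψ.continuous.comp hA.1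
  have c1 : ∀ x, Continuous fun t : ℤ_[p] => ψ (a t x) := fun x =>
    c0.comp (continuous_id.prodMk continuous_const)
  have I : ∀ {F : Type} [NormedAddCommGroup F] {f : ℤ_[p] → F}, Continuous f → Integrable f μ :=
    fun hf => hf.integrable_of_hasCompactSupport (HasCompactSupport.of_compactSpace _)
  have cφ : Continuous fun x => ∫ t, ψ (a t x) ∂μ := by
    have := continuous_parametric_integral_of_continuous (μ := μ)
      (f := fun x t => ψ (a t x)) (c0.comp continuous_swap) isCompact_univ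
    simpa only [Measure.restrict_univ] using this
  refine ⟨fun x => ∫ t, ψ (a t x) ∂μ, cφ, fun s x hxU => ?_, ?_, fun x hx => ?_,
    fun l c x hxU hx => ?_⟩
  · simp only [← hA.2.2.2.2 _ s x hxU]
    exact integral_add_right_eq_self (fun t => ψ (a t x)) s
  · have hC := hreg
    obtain ⟨M, hM⟩ := ((isCompact_univ.prod (isCompact_closedBall (0 : ι → ℝ) (R + 1))).image
      hA.1).isBounded.subset_closedBall 0
    obtain ⟨K, hK⟩ := hψ.contDiffOn.exists_lipschitzOnWith one_ne_zero (convex_closedBall 0 M)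
      (isCompact_closedBall (0 : ι → ℝ) M)
    refine ⟨K ^ Fintype.card ι * C, fun v hv => ?_⟩
    have cv : Continuous fun q : (ι → ℝ) × ℤ_[p] =>
        ‖a q.2 (q.1 + v) - a q.2 q.1‖ ^ Fintype.card ι :=
      ((hA.1.comp (continuous_snd.prodMk (continuous_fst.add continuous_const))).sub
        (hA.1.comp continuous_swap)).norm.pow _
    have cw : Continuous fun x => ∫ t, ‖a t (x + v) - a t x‖ ^ Fintype.card ι ∂μ := by
      have := continuous_parametric_integral_of_continuous (μ := μ)
        (f := fun x t => ‖a t (x + v) - a t x‖ ^ Fintype.card ι) cv isCompact_univ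
      simpa only [Measure.restrict_univ] using this
    have pw : ∀ x ∈ closedBall (0 : ι → ℝ) R,
        ‖∫ t, ψ (a t (x + v)) ∂μ - ∫ t, ψ (a t x) ∂μ‖ ^ Fintype.card ι ≤
          K ^ Fintype.card ι * ∫ t, ‖a t (x + v) - a t x‖ ^ Fintype.card ι ∂μ := by
      intro x hx
      have x1 := mem_closedBall_zero_iff.1 hx
      have c2 : Continuous fun t => ‖a t (x + v) - a t x‖ :=
        ((hA.1.comp (continuous_id.prodMk continuous_const)).sub
          (hA.1.comp (continuous_id.prodMk continuous_const))).norm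
      have b1 : ‖∫ t, ψ (a t (x + v)) ∂μ - ∫ t, ψ (a t x) ∂μ‖ ≤
          K * ∫ t, ‖a t (x + v) - a t x‖ ∂μ := by
        rw [← integral_sub (I (c1 _)) (I (c1 _)), ← integral_const_mul]
        refine norm_integral_le_of_norm_le (I (continuous_const.mul c2))
          (Eventually.of_forall fun t => ?_)
        exact hK.norm_sub_le
          (hM ⟨(t, x + v), ⟨mem_univ _, mem_closedBall_zero_iff.2
            ((norm_add_le x v).trans (by linarith))⟩, rfl⟩)
          (hM ⟨(t, x), ⟨mem_univ _, mem_closedBall_zero_iff.2 (by linarith)⟩, rfl⟩)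
      have b2 := (convexOn_pow (𝕜 := ℝ) (Fintype.card ι)).map_integral_le (μ := μ)
        (f := fun t => ‖a t (x + v) - a t x‖) (continuous_pow _).continuousOn isClosed_Ici
        (Eventually.of_forall fun t => norm_nonneg _) (I c2) (I (c2.pow _))
      refine (pow_le_pow_left₀ (norm_nonneg _) b1 _).trans ?_
      rw [mul_pow]
      exact mul_le_mul_of_nonneg_left b2 (by positivity)
    have sw : ∫ x in closedBall (0 : ι → ℝ) R, ∫ t, ‖a t (x + v) - a t x‖ ^ Fintype.card ι ∂μ =
        ∫ t, (∫ x in closedBall (0 : ι → ℝ) R, ‖a t (x + v) - a t x‖ ^ Fintype.card ι) ∂μ := by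
      refine integral_integral_swap ?_
      have := cv.continuousOn.integrableOn_compact (μ := (volume : Measure (ι → ℝ)).prod μ)
        ((isCompact_closedBall (0 : ι → ℝ) R).prod isCompact_univ)
      rwa [IntegrableOn, ← Measure.prod_restrict, Measure.restrict_univ] at this
    have cz : Continuous fun t : ℤ_[p] => ∫ x in closedBall (0 : ι → ℝ) R,
        ‖a t (x + v) - a t x‖ ^ Fintype.card ι :=
      continuous_parametric_integral_of_continuous
        (f := fun t x => ‖a t (x + v) - a t x‖ ^ Fintype.card ι) (cv.comp continuous_swap)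
        (isCompact_closedBall _ _)
    refine (setIntegral_mono_on
      ((((cφ.comp (continuous_add_const v)).sub cφ).norm.pow _).continuousOn.integrableOn_compact
        (isCompact_closedBall _ _))
      ((continuous_const.mul cw).continuousOn.integrableOn_compact (isCompact_closedBall _ _))
      measurableSet_closedBall pw).trans ?_
    simp only [Pi.mul_apply]
    rw [integral_const_mul, sw, mul_assoc]
    refine mul_le_mul_of_nonneg_left ?_ (by positivity)
    simpa using integral_mono (I cz) (integrable_const (C * ‖v‖ ^ β)) fun t => hC t v hv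
  · simp [hx]
  · have c3 : Continuous fun t => l (ψ (a t x)) - c := (l.continuous.comp (c1 x)).sub continuous_const
    have e : l (∫ t, ψ (a t x) ∂μ) - c = ∫ t, (l (ψ (a t x)) - c) ∂μ := by
      rw [integral_sub (f := fun t => l (ψ (a t x))) (I (l.continuous.comp (c1 x)))
        (integrable_const _),
        l.integral_comp_comm (I (c1 x))]
      simp
    refine ⟨sub_nonneg.1 (e ▸ integral_nonneg fun t => sub_nonneg.2 (hx t)), fun h0 => ?_⟩
    rw [h0, sub_self, eq_comm, integral_eq_zero_iff_of_nonneg (fun t => sub_nonneg.2 (hx t)) (I c3),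
      c3.ae_eq_iff_eq μ continuous_zero] at e
    have := congrFun e 0
    rwa [hA.2.2.2.1 x hxU, Pi.zero_apply, sub_eq_zero] at this

end Vale.Agent.P228S
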