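import Vale.Agent.P228S.Defs
import Vale.Agent.P228.Ind

/-! Local actions. -/

namespace Vale.Agent.P228S

open Set Vale.Agent.Lib.Degree

variable {ι : Type} [Fintype ι] [DecidableEq ι]

/-- a continuous family which is an action on the invariant open set `U` -/
def IsLoc {p : ℕ} [Fact p.Prime] (a : ℤ_[p] → (ι → ℝ) → (ι → ℝ)) (U : Set (ι → ℝ)) : Prop :=
  Continuous (fun q : ℤ_[p] × (ι → ℝ) => a q.1 q.2) ∧ IsOpen U ∧ (∀ t, ∀ x ∈ U, a t x ∈ U) ∧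
    (∀ x ∈ U, a 0 x = x) ∧ ∀ s t, ∀ x ∈ U, a (s + t) x = a s (a t x)

/-- local degree one over `O` inside `U` -/
def PosL (T : (ι → ℝ) → (ι → ℝ)) (O U : Set (ι → ℝ)) : Prop :=
  ∀ y ∈ O, ∀ Ω : Set (ι → ℝ), IsOpen Ω → Bornology.IsBounded Ω → closure Ω ⊆ U →
    (∃ x ∈ Ω, T x = y) → deg (fun x => T x - y) Ω = 1

end Vale.Agent.P228S
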