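import Vale.Agent.P228.Defs

/-! Statement-level definition for the manifold version of P228. -/

namespace Vale.Agent.P228S

open MeasureTheory

/-- in every chart of the atlas the self-map `g` of `M` has, on every ball where its chart
expression is defined, an integral modulus of continuity of order `β > n - 1` in `L^q`, `q ≤ n` -/
def SobReg (n : ℕ) {M : Type} [TopologicalSpace M] [ChartedSpace (Fin n → ℝ) M] (g : M → M) :
    Prop :=
  ∀ e ∈ atlas (Fin n → ℝ) M, ∀ (c : Fin n → ℝ) (r : ℝ), 0 < r →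
    Metric.closedBall c (2 * r) ⊆ e.target →
    (∀ y ∈ Metric.closedBall c (2 * r), g (e.symm y) ∈ e.source) →
    ∃ C q β : ℝ, 0 < q ∧ q ≤ n ∧ (n : ℝ) - 1 < β ∧ ∀ v : Fin n → ℝ, ‖v‖ ≤ r →
      ∫ y in Metric.closedBall c r, ‖e (g (e.symm (y + v))) - e (g (e.symm y))‖ ^ q ≤ C * ‖v‖ ^ β

end Vale.Agent.P228S
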