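import Vale.Agent.P228S.Base
import Vale.Agent.P228.Geo

namespace Vale.Agent.P228S

open MeasureTheory Set Metric Filter Topology Vale.Agent.Lib.Degree Vale.Agent.P228

variable {ι : Type} [Fintype ι] [DecidableEq ι]

omit [DecidableEq ι] in
theorem geoL_norm (c z y : ι → ℝ) (h : ∑ i, (z i - c i) ^ 2 ≤ ∑ i, (y i - c i) ^ 2) :
    ‖z - c‖ ≤ (Fintype.card ι + 1) * ‖y - c‖ := by
  have h0 : 0 ≤ ((Fintype.card ι : ℝ) + 1) * ‖y - c‖ := by positivity
  rw [pi_norm_le_iff_of_nonneg h0]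
  intro i
  rw [Real.norm_eq_abs, Pi.sub_apply]
  refine abs_le_of_sq_le_sq ?_ h0
  have h1 : (z i - c i) ^ 2 ≤ ∑ i, (z i - c i) ^ 2 :=
    Finset.single_le_sum (f := fun i => (z i - c i) ^ 2) (fun j _ => sq_nonneg _)
      (Finset.mem_univ i)
  have h2 : ∑ i, (y i - c i) ^ 2 ≤ Fintype.card ι * ‖y - c‖ ^ 2 := by
    rw [← Finset.card_univ, ← nsmul_eq_mul]
    refine Finset.sum_le_card_nsmul _ _ _ fun j _ => ?_
    have h3 : |y j - c j| ≤ ‖y - c‖ := norm_le_pi_norm (y - c) j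
    exact sq_le_sq' (abs_le.1 h3).1 (abs_le.1 h3).2
  have h4 : (0 : ℝ) ≤ Fintype.card ι := Nat.cast_nonneg _
  have h5 : (Fintype.card ι : ℝ) ≤ ((Fintype.card ι : ℝ) + 1) ^ 2 := by nlinarith
  have h6 := mul_le_mul_of_nonneg_right h5 (sq_nonneg ‖y - c‖)
  rw [mul_pow]
  linarith

theorem exists_touchL {W : Set (ι → ℝ)} (ho : IsOpen W) {c : ι → ℝ} (hc : c ∈ W)
    (hne : W ≠ univ) :
    ∃ (z : ι → ℝ) (ψ : (ι → ℝ) → (ι → ℝ)) (l : (ι → ℝ) →L[ℝ] ℝ) (ε : ℝ), z ∉ W ∧ 0 < ε ∧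
      (∀ y, y ∉ W → ‖z - c‖ ≤ (Fintype.card ι + 1) * ‖y - c‖) ∧
      ContDiff ℝ 1 ψ ∧ ψ z = z ∧
      (∀ x ∈ closedBall z ε, ∀ x' ∈ closedBall z ε, ‖ψ x - ψ x' - (x - x')‖ ≤ ‖x - x'‖ / 2) ∧
      (∀ x, l (ψ x) < l z → x ∈ W) ∧ (∀ x, l (ψ x) = l z → x ∈ closure W) ∧
      ∀ η > (0 : ℝ), ∃ x0 ∈ ball z η, l (ψ x0) < l z := by
  obtain ⟨z, hz, hmin⟩ := geo_min ho c hne
  obtain ⟨r, hr⟩ : ∃ r : ℝ, ∑ i, (z i - c i) ^ 2 = r := ⟨_, rfl⟩
  have hr0 : 0 < r := by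
    rw [← hr]
    refine lt_of_le_of_ne (Finset.sum_nonneg fun i _ => sq_nonneg _) fun h => hz ?_
    have h1 := (Finset.sum_eq_zero_iff_of_nonneg fun i _ => sq_nonneg (z i - c i)).1 h.symm
    have h2 : z = c := funext fun i => by
      have := h1 i (Finset.mem_univ i)
      exact sub_eq_zero.1 (pow_eq_zero_iff two_ne_zero |>.1 this)
    rw [h2]
    exact hc
  have hW : {y : ι → ℝ | ∑ i, (y i - c i) ^ 2 < r} ⊆ W := fun y hy => by
    by_contra h
    have h1 := hmin y h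
    rw [hr] at h1
    exact absurd hy (not_lt.2 h1)
  let l : (ι → ℝ) →L[ℝ] ℝ := ∑ i, (z i - c i) • ContinuousLinearMap.proj i
  have hl : ∀ v, l v = ∑ i, (z i - c i) * v i := fun v => by
    simp [l]
  let ψ : (ι → ℝ) → (ι → ℝ) := fun x => x + ((∑ i, (x i - z i) ^ 2) / (2 * r)) • (z - c)
  have key : ∀ x, l (ψ x) - l z = (∑ i, (x i - c i) ^ 2 - r) / 2 := by
    intro x
    have h1 : l (z - c) = r := by
      rw [hl, ← hr]
      exact Finset.sum_congr rfl fun i _ => by rw [Pi.sub_apply]; ring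
    have h2 : ∑ i, (x i - c i) ^ 2 = ∑ i, (x i - z i) ^ 2 + 2 * (l x - l z) + r := by
      rw [hl, hl, ← hr, ← Finset.sum_sub_distrib, Finset.mul_sum, ← Finset.sum_add_distrib,
        ← Finset.sum_add_distrib]
      exact Finset.sum_congr rfl fun i _ => by ring
    simp only [ψ, map_add, map_smul, smul_eq_mul]
    rw [h1, h2]
    field_simp
    ring
  obtain ⟨m, hm⟩ : ∃ m : ℝ, m = Fintype.card ι * ‖z - c‖ := ⟨_, rfl⟩
  have hm0 : 0 ≤ m := by rw [hm]; positivity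
  refine ⟨z, ψ, l, r / (2 * (m + 1)), hz, by positivity,
    fun y hy => geoL_norm c z y (hmin y hy), ?_, by simp [ψ], fun x hx x' hx' => ?_,
    fun x h => hW ?_, fun x h => closure_mono hW (geo_closure c x hr0 ?_), fun η hη => ?_⟩
  · simp only [ψ]
    fun_prop
  · have h1 : ψ x - ψ x' - (x - x') =
        ((∑ i, (x i - z i) ^ 2 - ∑ i, (x' i - z i) ^ 2) / (2 * r)) • (z - c) := by
      simp only [ψ]
      rw [sub_div, sub_smul]
      abel
    have h2 := geo_lip z x x' hx hx'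
    rw [h1, norm_smul, Real.norm_eq_abs, abs_div, abs_of_pos (by positivity : 0 < 2 * r)]
    have h3 : 0 ≤ ‖x - x'‖ := norm_nonneg _
    calc _ ≤ Fintype.card ι * (‖x - x'‖ * (2 * (r / (2 * (m + 1))))) / (2 * r) * ‖z - c‖ := by
          gcongr
      _ = ‖x - x'‖ / 2 * (m / (m + 1)) := by
          rw [hm]
          field_simp
      _ ≤ ‖x - x'‖ / 2 * 1 := by
          gcongr
          rw [div_le_one (by positivity)]
          linarith
      _ = ‖x - x'‖ / 2 := mul_one _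
  · have := key x
    show ∑ i, (x i - c i) ^ 2 < r
    linarith
  · have := key x
    linarith
  · obtain ⟨y, hy, hy'⟩ := Metric.mem_closure_iff.1 (geo_closure c z hr0 hr) η hη
    refine ⟨y, by rwa [mem_ball, dist_comm], ?_⟩
    have h1 := key y
    have h2 : ∑ i, (y i - c i) ^ 2 < r := hy
    linarith

end Vale.Agent.P228S
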