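import Vale.Agent.P228S.Base

namespace Vale.Agent.P228S

open MeasureTheory Set Metric Filter Topology Vale.Agent.Lib.Degree Vale.Agent.P228

variable {ι : Type} [Fintype ι] [DecidableEq ι]

theorem posL_of {T : (ι → ℝ) → (ι → ℝ)} (hT : Continuous T) {U V0 O : Set (ι → ℝ)}
    (hinj : InjOn T U) (ho : IsOpen V0) (hb : Bornology.IsBounded V0) (hV : closure V0 ⊆ U)
    (h : ∀ y ∈ O, (∀ x ∈ frontier V0, T x ≠ y) ∧ deg (fun x => T x - y) V0 = 1) : PosL T O U := by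
  rintro y hy Ω hΩo hΩb hΩU ⟨x0, hx0, hTx0⟩
  obtain ⟨h1, h2⟩ := h y hy
  have hc : Continuous fun x => T x - y := by fun_prop
  have hx0U : x0 ∈ U := hΩU (subset_closure hx0)
  obtain ⟨x1, hx1, hx1z⟩ := exists_zero_of_deg_ne_zero (f := fun x => T x - y) hc ho hb
    (by rw [h2]; exact one_ne_zero)
  have hT1 : T x1 = y := sub_eq_zero.1 hx1z
  have hx1V : x1 ∈ V0 := by
    by_contra hn
    exact h1 x1 ⟨hx1, by rwa [ho.interior_eq]⟩ hT1
  have e : x1 = x0 := hinj (hV hx1) hx0U (hT1.trans hTx0.symm)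
  have hmem : x0 ∈ V0 ∩ Ω := ⟨e ▸ hx1V, hx0⟩
  have a1 : deg (fun x => T x - y) V0 = deg (fun x => T x - y) (V0 ∩ Ω) := by
    refine deg_excision hc ho hb (ho.inter hΩo) inter_subset_left fun x hx h0 => ?_
    rw [hinj (hV hx) hx0U ((sub_eq_zero.1 h0).trans hTx0.symm)]
    exact hmem
  have a2 : deg (fun x => T x - y) Ω = deg (fun x => T x - y) (V0 ∩ Ω) := by
    refine deg_excision hc hΩo hΩb (ho.inter hΩo) inter_subset_right fun x hx h0 => ?_
    rw [hinj (hΩU hx) hx0U ((sub_eq_zero.1 h0).trans hTx0.symm)]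
    exact hmem
  rw [a2, ← a1, h2]

theorem preL {T S : (ι → ℝ) → (ι → ℝ)} (hS : Continuous S) {U Ω : Set (ι → ℝ)}
    (hSU : MapsTo S U U) (hST : ∀ x ∈ U, S (T x) = x) (hTS : ∀ x ∈ U, T (S x) = x)
    (hb : Bornology.IsBounded Ω) (hΩ : closure Ω ⊆ U) :
    Bornology.IsBounded (U ∩ T ⁻¹' Ω) ∧ closure (U ∩ T ⁻¹' Ω) ⊆ U ∩ T ⁻¹' closure Ω := by
  have hK : IsCompact (S '' closure Ω) := hb.isCompact_closure.image hS
  have hsub : U ∩ T ⁻¹' Ω ⊆ S '' closure Ω := fun x hx =>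
    ⟨T x, subset_closure hx.2, hST x hx.1⟩
  refine ⟨hK.isBounded.subset hsub, (closure_minimal hsub hK.isClosed).trans ?_⟩
  rintro _ ⟨y, hy, rfl⟩
  refine ⟨hSU (hΩ hy), ?_⟩
  rw [mem_preimage, hTS y (hΩ hy)]
  exact hy

theorem LDeg_fr {T S : (ι → ℝ) → (ι → ℝ)} (hT : Continuous T) (hS : Continuous S)
    {U Ω : Set (ι → ℝ)} (hU : IsOpen U)
    (hSU : MapsTo S U U) (hST : ∀ x ∈ U, S (T x) = x) (hTS : ∀ x ∈ U, T (S x) = x)
    (ho : IsOpen Ω) (hb : Bornology.IsBounded Ω) (hΩ : closure Ω ⊆ U) {x : ι → ℝ}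
    (hx : x ∈ frontier (U ∩ T ⁻¹' Ω)) : T x ∈ frontier Ω := by
  have h1 := (preL hS hSU hST hTS hb hΩ).2 hx.1
  refine ⟨h1.2, fun h2 => hx.2 ?_⟩
  rw [(hU.inter (ho.preimage hT)).interior_eq]
  exact ⟨h1.1, (interior_subset h2 : T x ∈ Ω)⟩

theorem LDeg_rouche {T S : (ι → ℝ) → (ι → ℝ)} (hT : Continuous T) (hS : Continuous S)
    {U Ω : Set (ι → ℝ)} (hU : IsOpen U)
    (hSU : MapsTo S U U) (hST : ∀ x ∈ U, S (T x) = x) (hTS : ∀ x ∈ U, T (S x) = x)
    (ho : IsOpen Ω) (hb : Bornology.IsBounded Ω) (hΩ : closure Ω ⊆ U)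
    {f g : (ι → ℝ) → (ι → ℝ)} (hf : Continuous f) (hg : Continuous g)
    (H : ∀ x ∈ frontier Ω, ‖g x - f x‖ < ‖f x‖) :
    deg (fun x => f (T x)) (U ∩ T ⁻¹' Ω) = deg (fun x => g (T x)) (U ∩ T ⁻¹' Ω) :=
  deg_rouche (hf.comp hT) (hg.comp hT) (hU.inter (ho.preimage hT))
    (preL hS hSU hST hTS hb hΩ).1 fun x hx =>
      H (T x) (LDeg_fr hT hS hU hSU hST hTS ho hb hΩ hx)

theorem deg_compL {T S : (ι → ℝ) → (ι → ℝ)} (hT : Continuous T) (hS : Continuous S)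
    {U O : Set (ι → ℝ)} (hU : IsOpen U) (hSU : MapsTo S U U) (hST : ∀ x ∈ U, S (T x) = x)
    (hTS : ∀ x ∈ U, T (S x) = x) (hpos : PosL T O U) {f : (ι → ℝ) → (ι → ℝ)}
    (hf : Continuous f) {Ω : Set (ι → ℝ)} (ho : IsOpen Ω) (hb : Bornology.IsBounded Ω)
    (hΩ : closure Ω ⊆ U) (hO : Ω ⊆ O) (H : ∀ x ∈ frontier Ω, f x ≠ 0) :
    deg (fun x => f (T x)) (U ∩ T ⁻¹' Ω) = deg f Ω := by
  obtain ⟨ε, hε, hgap⟩ := exists_gap hf hb H
  obtain ⟨g, hg, hgf, hreg⟩ := exists_reg hf hε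
  have hR : ∀ x ∈ frontier Ω, ‖g x - f x‖ < ‖f x‖ := fun x hx => (hgf x).trans_le (hgap x hx)
  have Hg : ∀ x ∈ frontier Ω, g x ≠ 0 := by
    intro x hx h0
    have := hR x hx
    rw [h0, zero_sub, norm_neg] at this
    exact lt_irrefl _ this
  obtain ⟨Z, r, hr, hZ, hsub, hdis, hloc⟩ := exists_balls hg ho hb Hg fun x _ h => hreg x h
  have hcl : ∀ x ∈ closure Ω, g x = 0 → ∃ z ∈ Z, x ∈ ball z r := by
    intro x hx h0
    refine ⟨x, (hZ x).2 ⟨?_, h0⟩, mem_ball_self hr⟩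
    by_contra hn
    exact Hg x ⟨hx, by rwa [ho.interior_eq]⟩ h0
  have hpre := preL hS hSU hST hTS hb hΩ
  rw [LDeg_rouche hT hS hU hSU hST hTS ho hb hΩ hf hg.continuous hR,
    deg_rouche hf hg.continuous ho hb hR,
    deg_sum hg.continuous ho hb Z (fun z => ball z r) (fun _ _ => isOpen_ball) hsub hdis hcl,
    deg_sum (f := fun x => g (T x)) (hg.continuous.comp hT) (hU.inter (ho.preimage hT))
      hpre.1 Z (fun z => U ∩ T ⁻¹' ball z r) (fun _ _ => hU.inter (isOpen_ball.preimage hT))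
      (fun z hz => inter_subset_inter_right _ (preimage_mono (hsub z hz)))
      (fun z hz z' hz' hne => (Disjoint.preimage T (hdis hz hz' hne)).mono
        inter_subset_right inter_subset_right)
      (fun x hx h0 => by
        obtain ⟨z, hz, hxz⟩ := hcl (T x) (hpre.2 hx).2 h0
        exact ⟨z, hz, (hpre.2 hx).1, hxz⟩)]
  refine Finset.sum_congr rfl fun z hz => ?_
  have hdet := hreg z ((hZ z).1 hz).2
  have hfr : ∀ x ∈ frontier (ball z r),
      ‖g x - fderiv ℝ g z (x - z)‖ < ‖fderiv ℝ g z (x - z)‖ := by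
    intro x hx
    rw [frontier_ball z hr.ne', mem_sphere] at hx
    exact hloc z hz x hx
  have hc : Continuous fun x => fderiv ℝ g z (x - z) := by fun_prop
  have hBU : closure (ball z r) ⊆ U := (closure_mono (hsub z hz)).trans hΩ
  have hpz := preL hS hSU hST hTS (isBounded_ball (x := z) (r := r)) hBU
  have hzU : z ∈ U := hBU (subset_closure (mem_ball_self hr))
  rw [← LDeg_rouche hT hS hU hSU hST hTS isOpen_ball isBounded_ball hBU hc hg.continuous hfr,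
    ← deg_rouche hc hg.continuous isOpen_ball isBounded_ball hfr, deg_affine hdet z hr,
    deg_lin (f := fun x => T x - z) (hT.sub continuous_const)
      (hU.inter (isOpen_ball.preimage hT)) hpz.1 ?_ hdet,
    hpos z (hO ((hZ z).1 hz).1) _ (hU.inter (isOpen_ball.preimage hT)) hpz.1
      (hpz.2.trans inter_subset_left)
      ⟨S z, ⟨hSU hzU, by rw [mem_preimage, hTS z hzU]; exact mem_ball_self hr⟩, hTS z hzU⟩,
    mul_one]
  intro x hx h0
  have := LDeg_fr hT hS hU hSU hST hTS isOpen_ball isBounded_ball hBU hx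
  rw [frontier_ball z hr.ne', mem_sphere, sub_eq_zero.1 h0, dist_self] at this
  exact hr.ne this

end Vale.Agent.P228S
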