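import Vale.Agent.P228S.LStepB
import Vale.Agent.P228S.GeoL
import Vale.Agent.P228S.AvgL

namespace Vale.Agent.P228S

open MeasureTheory Set Metric Filter Topology Vale.Agent.Lib.Degree Vale.Agent.P228

variable {ι : Type} [Fintype ι] [DecidableEq ι]

theorem newmanL {p : ℕ} [Fact p.Prime] {a : ℤ_[p] → (ι → ℝ) → (ι → ℝ)} {U : Set (ι → ℝ)}
    (hA : IsLoc a U) (hU : closedBall 0 4 ⊆ U) {B : ℝ} (hB : ∀ t x, ‖a t x‖ ≤ B) {C β : ℝ}
    (hβ : (Fintype.card ι : ℝ) - 1 < β) (hreg : ∀ t, Reg (a t) 17 C β)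
    (h : (0 : ι → ℝ) ∈ closure (interior {x | ∀ t, a t x = x})) :
    (0 : ι → ℝ) ∈ interior {x | ∀ t, a t x = x} := by
  set F : Set (ι → ℝ) := {x | ∀ t, a t x = x} with hF
  have hFc : IsClosed F := by
    have : F = ⋂ t, {x | a t x = x} := by ext x; simp [hF]
    rw [this]
    exact isClosed_iInter fun t =>
      isClosed_eq (hA.1.comp (continuous_const.prodMk continuous_id)) continuous_id
  have hWF : closure (interior F) ⊆ F := closure_minimal interior_subset hFc
  by_contra h0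
  have hne : interior F ≠ univ := fun e => h0 (e ▸ mem_univ _)
  have hm : (0 : ℝ) < Fintype.card ι + 2 := by positivity
  obtain ⟨c, hc, hc0⟩ := Metric.mem_closure_iff.1 h (1 / (Fintype.card ι + 2)) (by positivity)
  obtain ⟨z, ψ, l, ε0, hzW, hε0, hzc, hψ, hψz, h10, hlt, heq, hnear⟩ :=
    exists_touchL isOpen_interior hc hne
  have hz1 : ‖z‖ ≤ 1 := by
    have h1 := hzc 0 h0
    rw [zero_sub, norm_neg] at h1
    rw [dist_comm, dist_zero_right, lt_div_iff₀ hm] at hc0
    have h2 : ‖z‖ ≤ ‖z - c‖ + ‖c‖ := by simpa using norm_add_le (z - c) c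
    nlinarith
  have hzU : z ∈ U := hU (mem_closedBall_zero_iff.2 (by linarith))
  have hzF : z ∈ F := hWF (heq z (by rw [hψz]))
  obtain ⟨η0, hη0, hpos0⟩ := posL_fixed hA hzU hzF fun η hη => by
    obtain ⟨x0, hx0, hl0⟩ := hnear η hη
    exact ⟨x0, hx0, hlt x0 hl0⟩
  set ε : ℝ := min (min ε0 1) η0 with hεdef
  have hε : 0 < ε := lt_min (lt_min hε0 one_pos) hη0
  have hεa : ε ≤ ε0 := (min_le_left _ _).trans (min_le_left _ _)
  have hεb : ε ≤ 1 := (min_le_left _ _).trans (min_le_right _ _)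
  have hεc : ε ≤ η0 := min_le_right _ _
  have hn2 : ∀ x ∈ closedBall z ε, ‖x‖ ≤ 2 := by
    intro x hx
    have h1 : ‖x - z‖ ≤ ε := mem_closedBall_iff_norm.1 hx
    have h2 : ‖x‖ ≤ ‖x - z‖ + ‖z‖ := by simpa using norm_add_le (x - z) z
    linarith
  have hbU : closedBall z ε ⊆ U := fun x hx =>
    hU (mem_closedBall_zero_iff.2 (by linarith [hn2 x hx]))
  have h1 : ∀ x ∈ closedBall z ε, ∀ x' ∈ closedBall z ε,
      ‖ψ x - ψ x' - (x - x')‖ ≤ ‖x - x'‖ / 2 := fun x hx x' hx' =>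
    h10 x (closedBall_subset_closedBall hεa hx) x' (closedBall_subset_closedBall hεa hx')
  obtain ⟨φ, hφ, hinv, ⟨C', hφreg⟩, hfix, hl⟩ := exists_avgL hA hB hreg hψ
  have hD : ∀ x ∈ U, l z ≤ l (ψ x) → ∀ t, l z ≤ l (ψ (a t x)) := by
    intro x hxU hx t
    by_contra hlt'
    have h2 : a t x ∈ F := interior_subset (hlt _ (not_le.1 hlt'))
    have h3 : x = a t x := by
      have := h2 (-t)
      rw [← hA.2.2.2.2 _ _ x hxU, neg_add_cancel, hA.2.2.2.1 x hxU] at this
      exact this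
    rw [← h3] at hlt'
    exact hlt' hx
  have hinj : ∀ x ∈ closedBall z ε, ∀ x' ∈ closedBall z ε, ψ x = ψ x' → x = x' := by
    intro x hx x' hx' h
    have := h1 x hx x' hx'
    rw [h, sub_self, zero_sub, norm_neg] at this
    have h0 : ‖x - x'‖ = 0 := by linarith [norm_nonneg (x - x')]
    exact sub_eq_zero.1 (norm_eq_zero.1 h0)
  have hpos : PosL (a 1) (ball z ε) U := fun y hy => hpos0 y (ball_subset_ball hεc hy)
  refine hzW (mem_interior_fixL hA hε hbU hpos hφ hψ.continuous hinv ?_ hfix hzF hψz h1 ?_ ?_)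
  · intro O ho hO
    have e : (17 : ℝ) = 5 * ((3 : ℕ) : ℝ) + 2 := by norm_num
    rw [e] at hφreg
    obtain ⟨y, hy, hg⟩ := Ind.generic hφ 3 hβ hφreg ho hO
    refine ⟨y, hy, fun i b b' hb => ?_⟩
    obtain ⟨t, ht, h2⟩ := hg i b b' hb
    refine ⟨t, ht, fun x hx => h2 x ?_⟩
    have := hn2 x hx
    push_cast
    linarith
  · intro x hx hxz
    have hxF : x ∈ F := by
      rcases lt_or_ge (l (ψ x)) (l z) with h | h
      · exact interior_subset (hlt x h)
      · exact hWF (heq x ((hl l (l z) x (hbU hx) (hD x (hbU hx) h)).2 (by rw [hxz])))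
    refine hinj x hx z (mem_closedBall_self hε.le) ?_
    rw [← hfix x hxF, hxz, hψz]
  · intro η hη
    obtain ⟨x0, hx0, hl0⟩ := hnear (min η ε) (lt_min hη hε)
    refine ⟨x0, ball_subset_ball (min_le_left _ _) hx0, hlt x0 hl0, fun x hx hxx => ?_⟩
    have hxF : x ∈ F := by
      rcases lt_or_ge (l (ψ x)) (l z) with h | h
      · exact interior_subset (hlt x h)
      · have := (hl l (l z) x (hbU hx) (hD x (hbU hx) h)).1
        rw [hxx] at this
        exact absurd hl0 (not_lt.2 this)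
    refine hinj x hx x0 (ball_subset_closedBall (ball_subset_ball (min_le_right _ _) hx0)) ?_
    rw [← hfix x hxF, hxx]

end Vale.Agent.P228S
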