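import Vale.Agent.P228S.Base
import Vale.Agent.P228.PartB

namespace Vale.Agent.P228S

open MeasureTheory Set Metric Filter Topology Vale.Agent.Lib.Degree Vale.Agent.P228

variable {ι : Type} [Fintype ι] [DecidableEq ι]

theorem exists_smallL {p : ℕ} [Fact p.Prime] {a : ℤ_[p] → (ι → ℝ) → (ι → ℝ)} {U : Set (ι → ℝ)}
    (hA : IsLoc a U) {K : Set (ι → ℝ)} (hK : IsCompact K) (hKU : K ⊆ U) {δ : ℝ} (hδ : 0 < δ) :
    ∃ k : ℕ, ∀ t, ∀ x ∈ K, ‖a ((p : ℤ_[p]) ^ k * t) x - x‖ < δ := by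
  have hc : Continuous fun q : ℤ_[p] × (ι → ℝ) => ‖a q.1 q.2 - q.2‖ :=
    (hA.1.sub continuous_snd).norm
  have h1 : ∀ᶠ s in 𝓝 (0 : ℤ_[p]), ∀ x ∈ K, ‖a s x - x‖ < δ := by
    refine hK.eventually_forall_of_forall_eventually (P := fun s x => ‖a s x - x‖ < δ)
      fun y hy => ?_
    refine hc.continuousAt.eventually_lt continuousAt_const ?_
    simpa [hA.2.2.2.1 y (hKU hy)] using hδ
  obtain ⟨η, hη, h2⟩ := Metric.eventually_nhds_iff.1 h1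
  have hp1 : ‖(p : ℤ_[p])‖ < 1 := by
    rw [PadicInt.norm_p]
    exact inv_lt_one_of_one_lt₀ (by exact_mod_cast (Fact.out : p.Prime).one_lt)
  obtain ⟨k, hk⟩ := exists_pow_lt_of_lt_one hη hp1
  refine ⟨k, fun t => h2 ?_⟩
  rw [dist_zero_right, norm_mul, norm_pow]
  exact lt_of_le_of_lt (mul_le_of_le_one_right (by positivity) (PadicInt.norm_le_one t)) hk

theorem fixed_of_oneL {p : ℕ} [Fact p.Prime] {a : ℤ_[p] → (ι → ℝ) → (ι → ℝ)} {U : Set (ι → ℝ)}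
    (hA : IsLoc a U) {x : ι → ℝ} (hx : x ∈ U) (h : a 1 x = x) (t : ℤ_[p]) : a t x = x := by
  refine PadicInt.denseRange_natCast.induction_on (p := fun t => a t x = x) t
    (isClosed_eq (hA.1.comp (continuous_id.prodMk continuous_const)) continuous_const) fun n => ?_
  induction n with
  | zero => simpa using hA.2.2.2.1 x hx
  | succ n ih => rw [Nat.cast_succ, hA.2.2.2.2 _ _ x hx, h, ih]

theorem exists_partL {p : ℕ} [Fact p.Prime] {a : ℤ_[p] → (ι → ℝ) → (ι → ℝ)} {U : Set (ι → ℝ)}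
    (hA : IsLoc a U) {K : Set (ι → ℝ)} (hK : IsCompact K) (hKU : K ⊆ U)
    (hinv : ∀ t, ∀ x ∈ K, a t x ∈ K) (hfree : ∀ x ∈ K, a 1 x ≠ x)
    (hgrid : ∀ (i : ι) (b b' : ℝ), b < b' → ∃ t ∈ Ioo b b', ∀ x ∈ K, x i ≠ t) :
    ∃ (κ : Type) (_ : Fintype κ) (σ : Equiv.Perm κ) (k : ℕ) (c : (ι → ℝ) → κ) (δ : ℝ),
      σ ^ (p ^ k) = 1 ∧ 0 < δ ∧ (∀ x ∈ K, c (a 1 x) = σ (c x)) ∧ (∀ x ∈ K, σ (c x) ≠ c x) ∧
      ∀ x ∈ K, ∀ y ∈ K, dist x y < δ → c x = c y := by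
  classical
  have hcont : ∀ t, Continuous (a t) := fun t =>
    hA.1.comp (continuous_const.prodMk continuous_id)
  obtain ⟨η, hη, hηK⟩ := hK.exists_forall_le' (f := fun x => dist (a 1 x) x) (a := 0)
    ((hcont 1).dist continuous_id).continuousOn (fun x hx => dist_pos.2 (hfree x hx))
  obtain ⟨B, hB, c0, δ0, hδ0, hc1, hc2⟩ := exists_cells hK hgrid hη
  obtain ⟨k, hk⟩ := exists_smallL hA hK hKU hδ0
  haveI : NeZero (p ^ k) := ⟨pow_ne_zero k (Fact.out : p.Prime).ne_zero⟩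
  have hF : Continuous fun (x : ι → ℝ) (j : ZMod (p ^ k)) => a ((j.val : ℕ) : ℤ_[p]) x :=
    continuous_pi fun j => hcont _
  obtain ⟨δ, hδ, hU⟩ := Metric.uniformContinuousOn_iff.1
    (hK.uniformContinuousOn_of_continuous hF.continuousOn) δ0 hδ0
  have hper : ∀ (s t : ℤ_[p]), ∀ x ∈ K, c0 (a ((p : ℤ_[p]) ^ k * t + s) x) = c0 (a s x) := by
    intro s t x hx
    rw [hA.2.2.2.2 _ _ x (hKU hx)]
    refine hc1 _ (hinv _ _ (hinv _ _ hx)) _ (hinv _ _ hx) ?_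
    rw [dist_eq_norm]
    exact hk t _ (hinv _ _ hx)
  have heq : ∀ x ∈ K, (fun j : ZMod (p ^ k) => c0 (a ((j.val : ℕ) : ℤ_[p]) (a 1 x))) =
      partBShift (p ^ k) B (fun j : ZMod (p ^ k) => c0 (a ((j.val : ℕ) : ℤ_[p]) x)) := by
    intro x hx
    funext j
    show c0 (a ((j.val : ℕ) : ℤ_[p]) (a 1 x)) = c0 (a (((j + 1).val : ℕ) : ℤ_[p]) x)
    have h1 : (j + 1).val = (j.val + 1) % p ^ k := by
      rw [← ZMod.val_natCast]
      congr 1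
      push_cast
      rw [ZMod.natCast_zmod_val]
    have h2 : ((j.val : ℕ) : ℤ_[p]) + 1 = (p : ℤ_[p]) ^ k * (((j.val + 1) / p ^ k : ℕ) : ℤ_[p]) +
        (((j.val + 1) % p ^ k : ℕ) : ℤ_[p]) := by
      have := Nat.div_add_mod (j.val + 1) (p ^ k)
      exact_mod_cast congrArg (Nat.cast : ℕ → ℤ_[p]) this.symm
    rw [← hA.2.2.2.2 _ _ x (hKU hx), h1, h2]
    exact hper _ _ x hx
  refine ⟨ZMod (p ^ k) → B, inferInstance, partBShift (p ^ k) B, k,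
    fun x j => c0 (a ((j.val : ℕ) : ℤ_[p]) x), δ, ?_, hδ, heq, ?_, ?_⟩
  · ext w j
    rw [partB_shift_pow, ZMod.natCast_self, add_zero]
    rfl
  · intro x hx h
    have h1 := congrFun ((heq x hx).trans h) 0
    simp only [ZMod.val_zero, Nat.cast_zero, hA.2.2.2.1 x (hKU hx),
      hA.2.2.2.1 _ (hKU (hinv 1 x hx))] at h1
    have h2 := hc2 _ (hinv 1 x hx) _ hx h1
    exact absurd (hηK x hx) (not_le.2 h2)
  · intro x hx y hy hxy
    funext j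
    refine hc1 _ (hinv _ _ hx) _ (hinv _ _ hy) ?_
    exact lt_of_le_of_lt (dist_le_pi_dist
      (fun j : ZMod (p ^ k) => a ((j.val : ℕ) : ℤ_[p]) x)
      (fun j : ZMod (p ^ k) => a ((j.val : ℕ) : ℤ_[p]) y) j) (hU x hx y hy hxy)

end Vale.Agent.P228S
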