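import Vale.Agent.P228S.LKey

namespace Vale.Agent.P228S

open MeasureTheory Set Metric Filter Topology Vale.Agent.Lib.Degree Vale.Agent.P228

variable {ι : Type} [Fintype ι] [DecidableEq ι]

omit [DecidableEq ι] in
theorem baireL (h0 : 0 < Fintype.card ι) {p : ℕ} [Fact p.Prime] {A : ℤ_[p] → (ι → ℝ) → (ι → ℝ)} (hA : Continuous fun q : ℤ_[p] × (ι → ℝ) => A q.1 q.2) (R : ℝ)
    (h : ∀ t, ∃ C β : ℝ, (Fintype.card ι : ℝ) - 1 < β ∧ Reg (A t) R C β) :
    ∃ (t0 : ℤ_[p]) (j : ℕ) (C β : ℝ), (Fintype.card ι : ℝ) - 1 < β ∧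
      ∀ t, Reg (A (t0 + (p : ℤ_[p]) ^ j * t)) R C β := by
  let b : ℕ → ℝ := fun m => (Fintype.card ι : ℝ) - 1 + 1 / ((m : ℝ) + 1)
  let S : ℕ → Set ℤ_[p] := fun m => {t | Reg (A t) R m (b m)}
  have hcl : ∀ m, IsClosed (S m) := by
    intro m
    have : S m = ⋂ v : ι → ℝ, ⋂ _ : ‖v‖ ≤ 1, {t | ∫ x in closedBall (0 : ι → ℝ) R,
        ‖A t (x + v) - A t x‖ ^ Fintype.card ι ≤ m * ‖v‖ ^ b m} := by
      ext t; simp [S, Reg]
    rw [this]
    refine isClosed_iInter fun v => isClosed_iInter fun _ => isClosed_le ?_ continuous_const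
    refine continuous_parametric_integral_of_continuous
      (f := fun t x => ‖A t (x + v) - A t x‖ ^ Fintype.card ι) ?_ (isCompact_closedBall _ _)
    refine Continuous.pow (Continuous.norm (Continuous.sub ?_ hA)) _
    exact hA.comp (continuous_fst.prodMk (continuous_snd.add continuous_const))
  have hun : ⋃ m, S m = univ := by
    refine eq_univ_of_forall fun t => ?_
    obtain ⟨C, β, hβ, hr⟩ := h t
    obtain ⟨m1, hm1⟩ := exists_nat_one_div_lt (sub_pos.2 hβ)
    obtain ⟨m2, hm2⟩ := exists_nat_ge C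
    refine mem_iUnion.2 ⟨max m1 m2, ?_⟩
    have hb : b (max m1 m2) ≤ β := by
      have : 1 / (((max m1 m2 : ℕ) : ℝ) + 1) ≤ 1 / ((m1 : ℝ) + 1) :=
        one_div_le_one_div_of_le (by positivity) (by
          have : (m1 : ℝ) ≤ ((max m1 m2 : ℕ) : ℝ) := by exact_mod_cast le_max_left _ _
          linarith)
      simp only [b]
      linarith
    have hC : C ≤ ((max m1 m2 : ℕ) : ℝ) := hm2.trans (by exact_mod_cast le_max_right _ _)
    exact Ind.mono h0 hr hC (Nat.cast_nonneg _) hb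
  obtain ⟨m, t0, ht0⟩ := nonempty_interior_of_iUnion_of_closed hcl hun
  obtain ⟨ε, hε, hball⟩ := Metric.isOpen_iff.1 isOpen_interior t0 ht0
  have hp1 : ‖(p : ℤ_[p])‖ < 1 := by
    rw [PadicInt.norm_p]
    exact inv_lt_one_of_one_lt₀ (by exact_mod_cast (Fact.out : p.Prime).one_lt)
  obtain ⟨j, hj⟩ := exists_pow_lt_of_lt_one hε hp1
  refine ⟨t0, j, m, b m, by simp only [b]; have : (0 : ℝ) < 1 / ((m : ℝ) + 1) := by positivity
                            linarith, fun t => ?_⟩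
  refine (interior_subset (hball ?_) : _ ∈ S m)
  rw [mem_ball, dist_eq_norm, add_sub_cancel_left, norm_mul, norm_pow]
  exact (mul_le_of_le_one_right (by positivity) (PadicInt.norm_le_one t)).trans_lt hj

omit [Fintype ι] [DecidableEq ι] in
theorem IsLoc.sub {p : ℕ} [Fact p.Prime] {a : ℤ_[p] → (ι → ℝ) → (ι → ℝ)} {U : Set (ι → ℝ)}
    (hA : IsLoc a U) (c : ℤ_[p]) : IsLoc (fun t : ℤ_[p] => a (c * t)) U :=
  ⟨hA.1.comp ((continuous_const.mul continuous_fst).prodMk continuous_snd), hA.2.1,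
    fun _ x hx => hA.2.2.1 _ x hx, fun x hx => by simp only [mul_zero, hA.2.2.2.1 x hx],
    fun s t x hx => by simp only [mul_add, hA.2.2.2.2 _ _ x hx]⟩

theorem fixL (h0 : 0 < Fintype.card ι) {p : ℕ} [Fact p.Prime]
    {a : ℤ_[p] → (ι → ℝ) → (ι → ℝ)} {U : Set (ι → ℝ)} (hA : IsLoc a U)
    (hU : closedBall 0 4 ⊆ U)
    (h : ∀ t, ∃ C β : ℝ, (Fintype.card ι : ℝ) - 1 < β ∧ Reg (a t) 17 C β) :
    ∃ j : ℕ, ∀ t x, ‖x‖ ≤ 1 → a ((p : ℤ_[p]) ^ j * t) x = x := by
  obtain ⟨k, hk⟩ := exists_smallL hA (isCompact_closedBall (0 : ι → ℝ) 4) hU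
    (show (0 : ℝ) < 1 / 8 by norm_num)
  have hmem : ∀ x : ι → ℝ, ‖x‖ ≤ 4 → x ∈ U := fun x hx => hU (mem_closedBall_zero_iff.2 hx)
  set B : ℤ_[p] → (ι → ℝ) → (ι → ℝ) := fun t => a ((p : ℤ_[p]) ^ k * t) with hBdef
  have hB : IsLoc B U := hA.sub _
  have hclose : ∀ t x, ‖x‖ ≤ 4 → ‖B t x - x‖ ≤ 1 / 8 := fun t x hx =>
    (hk t x (mem_closedBall_zero_iff.2 hx)).le
  obtain ⟨t0, j, C, β, hβ, hreg⟩ := baireL h0 hB.1 17 fun t => h _
  set D : ℤ_[p] → (ι → ℝ) → (ι → ℝ) := fun t => B ((p : ℤ_[p]) ^ j * t) with hDdef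
  have hD : IsLoc D U := hB.sub _
  have hBc : ∀ t, Continuous (B t) := fun t => hB.1.comp (continuous_const.prodMk continuous_id)
  have hDc : ∀ t, Continuous (D t) := fun t => hD.1.comp (continuous_const.prodMk continuous_id)
  obtain ⟨φ, hφ, hφr, hφi, hφc⟩ := avg_gen (F := fun t => B (t0 + (p : ℤ_[p]) ^ j * t))
    (hB.1.comp ((continuous_const.add (continuous_const.mul continuous_fst)).prodMk continuous_snd))
  have hinv : ∀ s, ∀ x ∈ U, φ (D s x) = φ x := fun s x hx => hφi x _ s fun t => by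
    simp only [hDdef, ← hB.2.2.2.2 _ _ x hx, mul_add, add_assoc]
  have hφx : ∀ x, ‖x‖ ≤ 4 → ‖φ x - x‖ ≤ 1 / 8 := fun x hx =>
    hφc x x _ fun t => hclose _ x hx
  have hinj : InjOn (D 1) U := by
    intro x hx y hy hxy
    have h1 := hD.2.2.2.2 (-1) 1 x hx
    have h2 := hD.2.2.2.2 (-1) 1 y hy
    rw [neg_add_cancel, hD.2.2.2.1 x hx] at h1
    rw [neg_add_cancel, hD.2.2.2.1 y hy] at h2
    rw [h1, h2, hxy]
  have hpos : PosL (D 1) (ball 0 3) U := by
    refine posL_of (hDc 1) hinj (V0 := ball 0 4) isOpen_ball isBounded_ball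
      (closure_ball_subset_closedBall.trans hU) fun y hy => ⟨fun x hx hxy => ?_, ?_⟩
    · rw [frontier_ball _ (by norm_num : (4 : ℝ) ≠ 0), mem_sphere_zero_iff_norm] at hx
      rw [mem_ball_zero_iff] at hy
      have h1 : ‖D 1 x - x‖ ≤ 1 / 8 := hclose _ x hx.le
      rw [hxy] at h1
      have h2 := norm_sub_norm_le x y
      rw [norm_sub_rev] at h2
      linarith
    · refine deg_near ((hDc 1).sub continuous_const) 0 (by norm_num) fun x hx => ?_
      rw [dist_zero_right] at hx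
      rw [mem_ball_zero_iff] at hy
      have h1 : ‖D 1 x - x‖ ≤ 1 / 8 := hclose _ x hx.le
      have h2 : D 1 x - y - (x - 0) = (D 1 x - x) - y := by abel
      show ‖D 1 x - y - (x - 0)‖ < 4
      rw [h2]
      have := norm_sub_le (D 1 x - x) y
      linarith
  have hFc : IsClosed {y | ∀ t, D t (B (-t0) y) = B (-t0) y} := by
    have : {y | ∀ t, D t (B (-t0) y) = B (-t0) y} = ⋂ t, {y | D t (B (-t0) y) = B (-t0) y} := by
      ext y; simp
    rw [this]
    exact isClosed_iInter fun t => isClosed_eq ((hDc t).comp (hBc (-t0))) (hBc (-t0))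
  have hall : ∀ y ∈ ball (0 : ι → ℝ) 2, ∀ t, D t (B (-t0) y) = B (-t0) y := by
    by_contra hcon
    have hne : (ball (0 : ι → ℝ) 2 \ {y | ∀ t, D t (B (-t0) y) = B (-t0) y}).Nonempty := by
      by_contra h2
      exact hcon fun y hy => by
        by_contra h3
        exact h2 ⟨y, hy, h3⟩
    have hr : Reg φ (5 * ((3 : ℕ) : ℝ) + 2) C β := by
      have e : (5 * ((3 : ℕ) : ℝ) + 2) = 17 := by norm_num
      rw [e]
      exact hφr _ _ _ hreg
    obtain ⟨y, ⟨hy, hyn⟩, hgen⟩ := Ind.generic hφ 3 hβ hr (isOpen_ball.sdiff hFc) hne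
    rw [mem_ball_zero_iff] at hy
    have hnear : ∀ x, ‖x‖ ≤ 4 → φ x = y → ‖x‖ ≤ 2 + 1 / 8 := by
      intro x hx hxy
      have h1 := hφx x hx
      rw [hxy] at h1
      have h2 := norm_sub_norm_le x y
      rw [norm_sub_rev] at h2
      linarith
    obtain ⟨x, hx, hxy, hxf⟩ := keyL hD hpos hφ hinv isOpen_ball isBounded_ball
      (closure_ball_subset_closedBall.trans
        ((closedBall_subset_closedBall (by norm_num)).trans hU)) y
      (fun x hx hxy => by
        rw [frontier_ball _ (by norm_num : (3 : ℝ) ≠ 0), mem_sphere_zero_iff_norm] at hx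
        have := hnear x (by linarith) hxy
        linarith)
      (deg_near (by fun_prop) 0 (by norm_num) fun x hx => by
        rw [dist_zero_right] at hx
        have h1 := hφx x (by linarith)
        have h2 : φ x - y - (x - 0) = (φ x - x) - y := by abel
        rw [h2]
        have := norm_sub_le (φ x - x) y
        linarith)
      (fun x hx hxy t => by
        rw [mem_ball_zero_iff] at hx ⊢
        have h1 := hnear x (by linarith) hxy
        have h2 : ‖D t x - x‖ ≤ 1 / 8 := hclose _ x (by linarith)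
        have h3 := norm_sub_norm_le (D t x) x
        linarith)
      (fun i b b' hab => by
        obtain ⟨t, ht, ht'⟩ := hgen i b b' hab
        refine ⟨t, ht, fun x hx => ht' x ?_⟩
        push_cast
        exact (mem_ball_zero_iff.1 hx).le)
    have hxU : x ∈ U := hmem x (by linarith [mem_ball_zero_iff.1 hx])
    have h1 : φ x = B t0 x := by
      have := hφc x (B t0 x) 0 fun t => by
        have h2 : B ((p : ℤ_[p]) ^ j * t) x = x := hxf t
        simp only [hB.2.2.2.2 _ _ x hxU, h2, sub_self, norm_zero, le_refl]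
      exact sub_eq_zero.1 (norm_le_zero_iff.1 this)
    apply hyn
    have h2 : B (-t0) y = x := by
      rw [← hxy, h1, ← hB.2.2.2.2 _ _ x hxU, neg_add_cancel, hB.2.2.2.1 x hxU]
    simp only [mem_ofPred_eq, h2]
    exact hxf
  refine ⟨k + j, fun t x hx => ?_⟩
  have hxU : x ∈ U := hmem x (by linarith)
  have h1 : ‖B t0 x‖ < 2 := by
    have h2 := hclose t0 x (by linarith)
    have h3 := norm_sub_norm_le (B t0 x) x
    linarith
  have h2 := hall _ (mem_ball_zero_iff.2 h1) t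
  rw [← hB.2.2.2.2 _ _ x hxU, neg_add_cancel, hB.2.2.2.1 x hxU] at h2
  rw [pow_add, mul_assoc]
  exact h2

end Vale.Agent.P228S
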