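import Vale.Agent.P228S.LKey

namespace Vale.Agent.P228S

open MeasureTheory Set Metric Filter Topology Vale.Agent.Lib.Degree Vale.Agent.P228

variable {ι : Type} [Fintype ι] [DecidableEq ι]

theorem posL_fixed {p : ℕ} [Fact p.Prime] {a : ℤ_[p] → (ι → ℝ) → (ι → ℝ)} {U : Set (ι → ℝ)}
    (hA : IsLoc a U) {z : ι → ℝ} (hzU : z ∈ U) (hz : ∀ t, a t z = z)
    (h : ∀ η > (0 : ℝ), ∃ x0 ∈ ball z η, x0 ∈ interior {x | ∀ t, a t x = x}) :
    ∃ η > (0 : ℝ), PosL (a 1) (ball z η) U := by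
  have hT : Continuous (a 1) := hA.1.comp (continuous_const.prodMk continuous_id)
  have hinj : InjOn (a 1) U := by
    intro x hx x' hx' he
    have b1 := hA.2.2.2.2 (-1) 1 x hx
    have b2 := hA.2.2.2.2 (-1) 1 x' hx'
    rw [neg_add_cancel, hA.2.2.2.1 x hx] at b1
    rw [neg_add_cancel, hA.2.2.2.1 x' hx', ← he, ← b1] at b2
    exact b2.symm
  obtain ⟨ρ, hρ, hρU⟩ := Metric.nhds_basis_closedBall.mem_iff.1 (hA.2.1.mem_nhds hzU)
  have hK : IsCompact (a 1 '' sphere z ρ) := (isCompact_sphere z ρ).image hT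
  have hzK : z ∈ (a 1 '' sphere z ρ)ᶜ := by
    rintro ⟨x, hx, hx'⟩
    have b1 : x = z := hinj (hρU (sphere_subset_closedBall hx)) hzU (by rw [hx', hz])
    rw [b1, mem_sphere, dist_self] at hx
    exact hρ.ne hx
  obtain ⟨η, hη, hηK⟩ := Metric.isOpen_iff.1 hK.isClosed.isOpen_compl z hzK
  have hfr : ∀ x ∈ frontier (ball z ρ), a 1 x ∉ ball z η := fun x hx hx' =>
    hηK hx' ⟨x, frontier_ball_subset_sphere hx, rfl⟩
  obtain ⟨x0, hx0, hx0F⟩ := h _ (lt_min hη hρ)
  have hx0V : x0 ∈ ball z ρ := ball_subset_ball (min_le_right _ _) hx0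
  have hx0O : x0 ∈ ball z η := ball_subset_ball (min_le_left _ _) hx0
  obtain ⟨s, hs, hsub⟩ := Metric.nhds_basis_closedBall.mem_iff.1
    ((isOpen_interior.inter isOpen_ball).mem_nhds ⟨hx0F, hx0V⟩)
  refine ⟨η, hη, posL_of hT hinj (isOpen_ball (x := z) (ε := ρ)) isBounded_ball
    (closure_ball_subset_closedBall.trans hρU) fun y hy => ⟨fun x hx he => hfr x hx (he ▸ hy), ?_⟩⟩
  have c1 : Continuous fun x => a 1 x - y := hT.sub continuous_const
  have c2 : Continuous fun x => a 1 x - x0 := hT.sub continuous_const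
  rw [deg_homotopy c1 c2 isOpen_ball isBounded_ball ?_,
    deg_excision c2 isOpen_ball isBounded_ball (isOpen_ball (x := x0) (ε := s)) ?_ ?_]
  · refine deg_near c2 x0 hs fun x hx => ?_
    have b1 := hsub (mem_closedBall.2 hx.le)
    rw [interior_subset b1.1 1, sub_self, norm_zero]
    exact hs
  · exact fun x hx => (hsub (ball_subset_closedBall hx)).2
  · intro x hx h0
    rw [hinj (hρU (closure_ball_subset_closedBall hx)) (hρU (ball_subset_closedBall hx0V))
      ((sub_eq_zero.1 h0).trans (interior_subset hx0F 1).symm)]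
    exact mem_ball_self hs
  · intro x hx t ht h0
    have b1 : y + t • (x0 - y) ∈ ball z η := (convex_ball z η).add_smul_sub_mem hy hx0O ht
    have b2 : a 1 x = y + t • (x0 - y) := by
      have b3 : a 1 x - (y + t • (x0 - y)) = a 1 x - y + t • (a 1 x - x0 - (a 1 x - y)) := by
        simp only [smul_sub]
        abel
      rw [h0] at b3
      exact sub_eq_zero.1 b3
    exact hfr x hx (b2 ▸ b1)

theorem mem_interior_fixL {p : ℕ} [Fact p.Prime] {a : ℤ_[p] → (ι → ℝ) → (ι → ℝ)}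
    {U : Set (ι → ℝ)} (hA : IsLoc a U) {z : ι → ℝ} {ε : ℝ} (hε : 0 < ε)
    (hU : closedBall z ε ⊆ U) (hpos : PosL (a 1) (ball z ε) U) {φ ψ : (ι → ℝ) → (ι → ℝ)}
    (hφ : Continuous φ) (hψ : Continuous ψ) (hinv : ∀ t, ∀ x ∈ U, φ (a t x) = φ x)
    (hgen : ∀ O : Set (ι → ℝ), IsOpen O → O.Nonempty → ∃ y ∈ O, ∀ (i : ι) (b b' : ℝ), b < b' →
      ∃ t ∈ Ioo b b', ∀ x ∈ closedBall z ε, φ x = y → x i ≠ t)
    (hfix : ∀ x, (∀ t, a t x = x) → φ x = ψ x) (hz : ∀ t, a t z = z) (hψz : ψ z = z)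
    (h1 : ∀ x ∈ closedBall z ε, ∀ x' ∈ closedBall z ε, ‖ψ x - ψ x' - (x - x')‖ ≤ ‖x - x'‖ / 2)
    (h2 : ∀ x ∈ closedBall z ε, φ x = z → x = z)
    (h3 : ∀ η > (0 : ℝ), ∃ x0 ∈ ball z η, x0 ∈ interior {x | ∀ t, a t x = x} ∧
      ∀ x ∈ closedBall z ε, φ x = ψ x0 → x = x0) :
    z ∈ interior {x | ∀ t, a t x = x} := by
  have hF : IsClosed {x : ι → ℝ | ∀ t, a t x = x} := by
    have : {x : ι → ℝ | ∀ t, a t x = x} = ⋂ t, {x | a t x = x} := by
      ext x
      simp
    rw [this]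
    exact isClosed_iInter fun t => isClosed_eq
      (hA.1.comp (continuous_const.prodMk continuous_id)) continuous_id
  obtain ⟨u, W, -, hWo, hu, hzW, hW⟩ := generalized_tube_lemma (isCompact_univ (X := ℤ_[p]))
    (isCompact_singleton (x := z)) ((isOpen_ball (x := z) (ε := ε)).preimage hA.1) (by
      rintro ⟨t, x⟩ ⟨-, hx⟩
      have hx' : x = z := hx
      change a t x ∈ ball z ε
      rw [hx', hz]
      exact mem_ball_self hε)
  have hW' : ∀ x ∈ W, ∀ t, a t x ∈ ball z ε := fun x hx t =>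
    hW (mk_mem_prod (hu (mem_univ t)) hx)
  have hK : IsCompact (φ '' (closedBall z ε \ W)) :=
    ((isCompact_closedBall z ε).diff hWo).image hφ
  have hzK : z ∈ (φ '' (closedBall z ε \ W))ᶜ := by
    rintro ⟨x, hx, hx'⟩
    exact hx.2 (by rw [h2 x hx.1 hx']; exact hzW rfl)
  obtain ⟨η, hη, hηK⟩ := Metric.isOpen_iff.1 hK.isClosed.isOpen_compl z hzK
  have hin : ∀ x ∈ closedBall z ε, φ x ∈ ball z η → x ∈ W := by
    intro x hx hx'
    by_contra hc
    exact hηK hx' ⟨x, ⟨hx, hc⟩, rfl⟩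
  have hfr : ∀ x ∈ frontier (ball z ε), φ x ∉ ball z η := by
    intro x hx hx'
    rw [isOpen_ball.frontier_eq] at hx
    have h4 := hW' x (hin x (closure_ball_subset_closedBall hx.1) hx') 0
    rw [hA.2.2.2.1 x (hU (closure_ball_subset_closedBall hx.1))] at h4
    exact hx.2 h4
  have hη' : 0 < min ε (η / 2) := lt_min hε (by linarith)
  have hψO : ∀ x ∈ ball z (min ε (η / 2)), ψ x ∈ ball z η := by
    intro x hx
    have a1 : ‖x - z‖ < min ε (η / 2) := mem_ball_iff_norm.1 hx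
    have a2 := h1 x (mem_closedBall_iff_norm.2 (a1.trans_le (min_le_left _ _)).le) z
      (mem_closedBall_self hε.le)
    rw [hψz] at a2
    have a3 := norm_sub_norm_le (ψ x - z) (x - z)
    have a4 := a1.trans_le (min_le_right _ _)
    exact mem_ball_iff_norm.2 (by linarith)
  obtain ⟨x0, hx0, hx0F, hx0u⟩ := h3 _ hη'
  have hx0V : x0 ∈ ball z ε := ball_subset_ball (min_le_left _ _) hx0
  obtain ⟨s, hs, hsub⟩ := Metric.nhds_basis_closedBall.mem_iff.1
    ((isOpen_interior.inter isOpen_ball).mem_nhds ⟨hx0F, hx0V⟩)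
  have hdeg : ∀ y ∈ ball z η, deg (fun x => φ x - y) (ball z ε) = 1 := by
    intro y hy
    have c1 : Continuous fun x => φ x - y := hφ.sub continuous_const
    have c2 : Continuous fun x => φ x - ψ x0 := hφ.sub continuous_const
    rw [deg_homotopy c1 c2 isOpen_ball isBounded_ball ?_,
      deg_excision c2 isOpen_ball isBounded_ball (isOpen_ball (x := x0) (ε := s)) ?_ ?_]
    · refine deg_near c2 x0 hs fun x hx => ?_
      have b1 := hsub (mem_closedBall.2 hx.le)
      have b2 := h1 x (ball_subset_closedBall b1.2) x0 (ball_subset_closedBall hx0V)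
      rw [hfix x (interior_subset b1.1)]
      rw [dist_eq_norm] at hx
      rw [hx] at b2
      linarith
    · exact fun x hx => (hsub (ball_subset_closedBall hx)).2
    · intro x hx h0
      rw [hx0u x (closure_ball_subset_closedBall hx) (sub_eq_zero.1 h0)]
      exact mem_ball_self hs
    · intro x hx t ht h0
      have b1 : y + t • (ψ x0 - y) ∈ ball z η :=
        (convex_ball z η).add_smul_sub_mem hy (hψO x0 hx0) ht
      have b2 : φ x = y + t • (ψ x0 - y) := by
        have b3 : φ x - (y + t • (ψ x0 - y)) = φ x - y + t • (φ x - ψ x0 - (φ x - y)) := by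
          simp only [smul_sub]
          abel
        rw [h0] at b3
        exact sub_eq_zero.1 b3
      exact hfr x hx (b2 ▸ b1)
  have hC : IsCompact (ψ '' ({x : ι → ℝ | ∀ t, a t x = x} ∩ closedBall z ε)) :=
    ((isCompact_closedBall z ε).inter_left hF).image hψ
  have hO : ball z η ⊆ ψ '' ({x : ι → ℝ | ∀ t, a t x = x} ∩ closedBall z ε) := by
    by_contra hc
    obtain ⟨y, hy, hg⟩ := hgen _ (isOpen_ball.sdiff hC.isClosed) (Set.not_subset.1 hc)
    obtain ⟨x, hx, hxy, hxF⟩ := keyL hA hpos hφ hinv isOpen_ball isBounded_ball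
      (closure_ball_subset_closedBall.trans hU) y
      (fun x hx h => hfr x hx (h ▸ hy.1)) (hdeg y hy.1)
      (fun x hx h => hW' x (hin x (ball_subset_closedBall hx) (h ▸ hy.1)))
      (fun i b b' hb => by
        obtain ⟨t, ht, ht'⟩ := hg i b b' hb
        exact ⟨t, ht, fun x hx => ht' x (ball_subset_closedBall hx)⟩)
    exact hy.2 ⟨x, ⟨hxF, ball_subset_closedBall hx⟩, by rw [← hfix x hxF, hxy]⟩
  refine mem_interior.2 ⟨ball z (min ε (η / 2)), fun x hx => ?_, isOpen_ball, mem_ball_self hη'⟩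
  obtain ⟨x', hx', he⟩ := hO (hψO x hx)
  have a1 := h1 x (ball_subset_closedBall (ball_subset_ball (min_le_left _ _) hx)) x' hx'.2
  rw [he, sub_self, zero_sub, norm_neg] at a1
  have a2 : ‖x - x'‖ = 0 := le_antisymm (by linarith) (norm_nonneg _)
  rw [sub_eq_zero.1 (norm_eq_zero.1 a2)]
  exact hx'.1

end Vale.Agent.P228S
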