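import Vale.Agent.P228S.Base

namespace Vale.Agent.P228S

open MeasureTheory Set Metric Filter Topology Vale.Agent.Lib.Degree Vale.Agent.P228

variable {ι : Type} [Fintype ι] [DecidableEq ι]

omit [DecidableEq ι] in
theorem model_clamp (c : ι → ℝ) {r : ℝ} (hr : 0 < r) :
    ∃ ρ : (ι → ℝ) → (ι → ℝ), Continuous ρ ∧ (∀ y, ρ y ∈ closedBall c r) ∧
      ∀ y ∈ closedBall c r, ρ y = y := by
  refine ⟨fun y i => max (c i - r) (min (c i + r) (y i)), by fun_prop, fun y => ?_, fun y hy => ?_⟩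
  · rw [mem_closedBall, dist_pi_le_iff hr.le]
    intro i
    rw [Real.dist_eq, abs_le]
    have h1 := le_max_left (c i - r) (min (c i + r) (y i))
    have h2 : max (c i - r) (min (c i + r) (y i)) ≤ c i + r :=
      max_le (by linarith) (min_le_left _ _)
    constructor <;> linarith
  · funext i
    rw [mem_closedBall, dist_pi_le_iff hr.le] at hy
    have h := hy i
    rw [Real.dist_eq, abs_le] at h
    show max (c i - r) (min (c i + r) (y i)) = y i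
    rw [min_eq_right (by linarith [h.2]), max_eq_right (by linarith [h.1])]

theorem exists_model {p : ℕ} [Fact p.Prime] {M : Type} [TopologicalSpace M] {A : ℤ_[p] → M → M}
    (hA : IsAct A) (e : OpenPartialHomeomorph M (ι → ℝ)) (c : ι → ℝ) {r : ℝ} (hr : 0 < r)
    (h1 : closedBall c r ⊆ e.target) (h2 : ∀ t, ∀ y ∈ closedBall c r, A t (e.symm y) ∈ e.source)
    (h3 : ∀ t, e (A t (e.symm c)) ∈ ball c r) :
    ∃ l0 > (0 : ℝ), 40 * l0 ≤ r ∧ ∀ l : ℝ, 0 < l → l ≤ l0 →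
      ∃ (a : ℤ_[p] → (ι → ℝ) → (ι → ℝ)) (U : Set (ι → ℝ)) (B : ℝ), IsLoc a U ∧
        closedBall 0 4 ⊆ U ∧ (∀ t x, ‖a t x‖ ≤ B) ∧
        ∀ t x, ‖x‖ ≤ 40 → c + l • a t x = e (A t (e.symm (c + l • x))) := by
  obtain ⟨ρ, hρ, hρ1, hρ2⟩ := model_clamp c hr
  obtain ⟨Φ, hΦ⟩ : ∃ Φ : ℤ_[p] → (ι → ℝ) → (ι → ℝ), ∀ t y, Φ t y = e (A t (e.symm (ρ y))) :=
    ⟨_, fun _ _ => rfl⟩
  have hc : Continuous fun q : ℤ_[p] × (ι → ℝ) => Φ q.1 q.2 := by
    simp only [hΦ]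
    have a1 : Continuous fun y => e.symm (ρ y) :=
      e.continuousOn_symm.comp_continuous hρ fun y => h1 (hρ1 y)
    have a2 : Continuous fun q : ℤ_[p] × (ι → ℝ) => A q.1 (e.symm (ρ q.2)) :=
      hA.1.comp (continuous_fst.prodMk (a1.comp continuous_snd))
    exact e.continuousOn.comp_continuous a2 fun q => h2 _ _ (hρ1 _)
  set V : Set (ι → ℝ) := {y | y ∈ ball c r ∧ ∀ t, Φ t y ∈ ball c r} with hV
  have hVo : IsOpen V := by
    have a1 : IsClosed (Prod.snd '' {q : ℤ_[p] × (ι → ℝ) | Φ q.1 q.2 ∉ ball c r}) :=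
      isClosedMap_snd_of_compactSpace _ (isOpen_ball.isClosed_compl.preimage hc)
    have a2 : V = ball c r ∩ (Prod.snd '' {q : ℤ_[p] × (ι → ℝ) | Φ q.1 q.2 ∉ ball c r})ᶜ := by
      ext y
      constructor
      · rintro ⟨b1, b2⟩
        refine ⟨b1, ?_⟩
        rintro ⟨q, hq, rfl⟩
        exact hq (b2 _)
      · rintro ⟨b1, b2⟩
        refine ⟨b1, fun t => ?_⟩
        by_contra b3
        exact b2 ⟨(t, y), b3, rfl⟩
    rw [a2]
    exact isOpen_ball.inter a1.isOpen_compl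
  have hcV : c ∈ V := ⟨mem_ball_self hr, fun t => by
    rw [hΦ, hρ2 c (mem_closedBall_self hr.le)]
    exact h3 t⟩
  have hadd : ∀ s t, ∀ y ∈ V, Φ (s + t) y = Φ s (Φ t y) := by
    intro s t y hy
    rw [hΦ s, hρ2 _ (ball_subset_closedBall (hy.2 t)), hΦ, hΦ, e.left_inv (h2 t _ (hρ1 y)),
      hA.2.2]
  have hzero : ∀ y ∈ V, Φ 0 y = y := by
    intro y hy
    have a1 := ball_subset_closedBall hy.1
    rw [hΦ, hA.2.1, hρ2 y a1, e.right_inv (h1 a1)]
  obtain ⟨δ, hδ, hδV⟩ := Metric.isOpen_iff.1 hVo c hcV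
  obtain ⟨B, hB⟩ := ((isCompact_univ.prod (isCompact_closedBall c r)).image
    hc).isBounded.exists_norm_le
  have hB' : ∀ t y, ‖Φ t y‖ ≤ B := by
    intro t y
    have a1 : Φ t y = Φ t (ρ y) := by rw [hΦ, hΦ, hρ2 _ (hρ1 y)]
    rw [a1]
    exact hB _ ⟨(t, ρ y), ⟨mem_univ _, hρ1 y⟩, rfl⟩
  have hl1 := min_le_left (r / 40) (δ / 5)
  have hl2 := min_le_right (r / 40) (δ / 5)
  refine ⟨min (r / 40) (δ / 5), lt_min (by positivity) (by positivity), by linarith,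
    fun l hl hl0 => ?_⟩
  obtain ⟨a, ha⟩ : ∃ a : ℤ_[p] → (ι → ℝ) → (ι → ℝ),
      ∀ t x, a t x = l⁻¹ • (Φ t (c + l • x) - c) := ⟨_, fun _ _ => rfl⟩
  have hkey : ∀ t x, c + l • a t x = Φ t (c + l • x) := by
    intro t x
    rw [ha, smul_inv_smul₀ hl.ne', add_sub_cancel]
  have hdist : ∀ x : ι → ℝ, dist (c + l • x) c = l * ‖x‖ := by
    intro x
    rw [dist_eq_norm, add_sub_cancel_left, norm_smul, Real.norm_eq_abs, abs_of_pos hl]
  refine ⟨a, {x | c + l • x ∈ V}, l⁻¹ * (B + ‖c‖), ⟨?_, ?_, fun t x hx => ?_, fun x hx => ?_,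
    fun s t x hx => ?_⟩, fun x hx => hδV ?_, fun t x => ?_, fun t x hx => ?_⟩
  · simp only [ha]
    have a1 : Continuous fun q : ℤ_[p] × (ι → ℝ) => Φ q.1 (c + l • q.2) :=
      hc.comp (f := fun q : ℤ_[p] × (ι → ℝ) => (q.1, c + l • q.2)) (by fun_prop)
    exact (a1.sub continuous_const).const_smul l⁻¹
  · exact hVo.preimage (by fun_prop)
  · show c + l • a t x ∈ V
    rw [hkey]
    exact ⟨hx.2 t, fun s => by rw [← hadd s t _ hx]; exact hx.2 _⟩
  · rw [ha, hzero _ hx, add_sub_cancel_left, inv_smul_smul₀ hl.ne']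
  · rw [ha, ha s, hkey, hadd s t _ hx]
  · rw [mem_closedBall_zero_iff] at hx
    rw [mem_ball, hdist]
    nlinarith
  · rw [ha, norm_smul, Real.norm_eq_abs, abs_of_pos (inv_pos.2 hl)]
    exact mul_le_mul_of_nonneg_left ((norm_sub_le _ _).trans (by linarith [hB' t (c + l • x)]))
      (inv_pos.2 hl).le
  · rw [hkey, hΦ, hρ2]
    rw [mem_closedBall, hdist]
    nlinarith

end Vale.Agent.P228S
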