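import Vale.Agent.P228S.Base

namespace Vale.Agent.P228S

open MeasureTheory Set Metric Filter Topology Vale.Agent.Lib.Degree Vale.Agent.P228

variable {ι : Type} [Fintype ι] [DecidableEq ι]

omit [DecidableEq ι] in
theorem Trans_cov (G : (ι → ℝ) → ℝ) (c : ι → ℝ) {l : ℝ} (hl : 0 < l) (R : ℝ) :
    ∫ x in closedBall (0 : ι → ℝ) R, G (c + l • x) =
      (l ^ Module.finrank ℝ (ι → ℝ))⁻¹ * ∫ y in closedBall c (R * l), G y := by
  have h1 : ∀ x : ι → ℝ, (closedBall (0 : ι → ℝ) R).indicator (fun x => G (c + l • x)) x =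
      (fun w => (closedBall c (R * l)).indicator G (c + w)) (l • x) := by
    intro x
    have h2 : c + l • x ∈ closedBall c (R * l) ↔ x ∈ closedBall (0 : ι → ℝ) R := by
      rw [mem_closedBall, dist_eq_norm, add_sub_cancel_left, norm_smul, Real.norm_eq_abs,
        abs_of_pos hl, mem_closedBall_zero_iff, mul_comm]
      exact mul_le_mul_iff_left₀ hl
    by_cases hx : x ∈ closedBall (0 : ι → ℝ) R
    · simp only [indicator_of_mem hx, indicator_of_mem (h2.2 hx)]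
    · simp only [indicator_of_notMem hx, indicator_of_notMem (fun h => hx (h2.1 h))]
  rw [← integral_indicator measurableSet_closedBall, ← integral_indicator measurableSet_closedBall]
  simp only [h1]
  rw [Measure.integral_comp_smul_of_nonneg volume
    (fun w => (closedBall c (R * l)).indicator G (c + w)) l (hR := hl.le),
    integral_add_left_eq_self (fun w => (closedBall c (R * l)).indicator G w) c, smul_eq_mul]

theorem reg_of_chart {g f : (ι → ℝ) → (ι → ℝ)} (hf : Continuous f) (c : ι → ℝ) {l : ℝ}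
    (hl : 0 < l) (hfg : ∀ x, ‖x‖ ≤ 40 → c + l • f x = g (c + l • x)) {C q β : ℝ} (hq : 0 < q)
    (hqn : q ≤ Fintype.card ι) (h : ∀ v : ι → ℝ, ‖v‖ ≤ 17 * l →
      ∫ y in closedBall c (17 * l), ‖g (y + v) - g y‖ ^ q ≤ C * ‖v‖ ^ β) :
    ∃ C', Reg f 17 C' β := by
  refine reg_of_q (C := l⁻¹ ^ q * (l ^ Module.finrank ℝ (ι → ℝ))⁻¹ * (C * l ^ β)) hf hq hqn
    fun v hv => ?_
  have hn : ‖l • v‖ = l * ‖v‖ := by rw [norm_smul, Real.norm_eq_abs, abs_of_pos hl]
  have h1 := h (l • v) (by rw [hn]; nlinarith)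
  rw [hn, Real.mul_rpow hl.le (norm_nonneg v)] at h1
  have h2 : ∫ x in closedBall (0 : ι → ℝ) 17, ‖f (x + v) - f x‖ ^ q =
      ∫ x in closedBall (0 : ι → ℝ) 17,
        l⁻¹ ^ q * ‖g (c + l • x + l • v) - g (c + l • x)‖ ^ q := by
    refine setIntegral_congr_fun measurableSet_closedBall fun x hx => ?_
    rw [mem_closedBall_zero_iff] at hx
    have a1 := hfg x (by linarith)
    have a2 := hfg (x + v) (by linarith [norm_add_le x v])
    rw [smul_add, ← add_assoc] at a2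
    have a3 : g (c + l • x + l • v) - g (c + l • x) = l • (f (x + v) - f x) := by
      rw [← a1, ← a2, smul_sub]
      abel
    rw [a3, norm_smul, Real.norm_eq_abs, abs_of_pos hl,
      ← Real.mul_rpow (inv_pos.2 hl).le (by positivity), ← mul_assoc, inv_mul_cancel₀ hl.ne',
      one_mul]
  rw [h2, integral_const_mul, Trans_cov (fun y => ‖g (y + l • v) - g y‖ ^ q) c hl 17]
  have h3 : 0 ≤ l⁻¹ ^ q * (l ^ Module.finrank ℝ (ι → ℝ))⁻¹ := by positivity
  calc l⁻¹ ^ q * ((l ^ Module.finrank ℝ (ι → ℝ))⁻¹ *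
        ∫ y in closedBall c (17 * l), ‖g (y + l • v) - g y‖ ^ q)
      = l⁻¹ ^ q * (l ^ Module.finrank ℝ (ι → ℝ))⁻¹ *
        ∫ y in closedBall c (17 * l), ‖g (y + l • v) - g y‖ ^ q := by ring
    _ ≤ l⁻¹ ^ q * (l ^ Module.finrank ℝ (ι → ℝ))⁻¹ * (C * (l ^ β * ‖v‖ ^ β)) :=
        mul_le_mul_of_nonneg_left h1 h3
    _ = _ := by ring

theorem reg_unif (h0 : 0 < Fintype.card ι) {p : ℕ} [Fact p.Prime]
    {a : ℤ_[p] → (ι → ℝ) → (ι → ℝ)} (j : ℕ)
    (hj : ∀ s t x, ‖x‖ ≤ 40 → a (s + (p : ℤ_[p]) ^ j * t) x = a s x)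
    (h : ∀ t, ∃ C β : ℝ, (Fintype.card ι : ℝ) - 1 < β ∧ Reg (a t) 17 C β) :
    ∃ C β : ℝ, (Fintype.card ι : ℝ) - 1 < β ∧ ∀ t, Reg (a t) 17 C β := by
  choose C β hβ hr using fun m : ℕ => h (m : ℤ_[p])
  have hne : (Finset.range (p ^ j)).Nonempty :=
    Finset.nonempty_range_iff.2 (pow_pos (Fact.out : p.Prime).pos j).ne'
  obtain ⟨a1, -, ha1⟩ := Finset.exists_max_image _ C hne
  obtain ⟨a2, -, ha2⟩ := Finset.exists_min_image _ β hne
  refine ⟨max (C a1) 0, β a2, hβ a2, fun t => ?_⟩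
  have hmem : t.appr j ∈ Finset.range (p ^ j) := Finset.mem_range.2 (PadicInt.appr_lt t j)
  obtain ⟨s, hs⟩ := Ideal.mem_span_singleton'.1 (PadicInt.appr_spec j t)
  have ht : ∀ x, ‖x‖ ≤ 40 → a t x = a (t.appr j) x := by
    intro x hx
    have : t = (t.appr j : ℤ_[p]) + (p : ℤ_[p]) ^ j * s := by rw [mul_comm, hs]; ring
    conv_lhs => rw [this, hj _ s x hx]
  have h1 := Ind.mono h0 (hr (t.appr j)) ((ha1 _ hmem).trans (le_max_left _ 0)) (le_max_right _ _)
    (ha2 _ hmem)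
  intro v hv
  refine le_trans (le_of_eq ?_) (h1 v hv)
  refine setIntegral_congr_fun measurableSet_closedBall fun x hx => ?_
  rw [mem_closedBall_zero_iff] at hx
  have h2 := norm_add_le x v
  rw [ht x (by linarith), ht (x + v) (by linarith)]

end Vale.Agent.P228S
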