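import Vale.Agent.P228S.Base

namespace Vale.Agent.P228S

open MeasureTheory Set Metric Filter Topology Vale.Agent.Lib.Degree Vale.Agent.P228

variable {ι : Type} [Fintype ι] [DecidableEq ι]

theorem tube_pow {p : ℕ} [Fact p.Prime] {δ : ℝ} (hδ : 0 < δ) :
    ∃ k : ℕ, ∀ t : ℤ_[p], ‖(p : ℤ_[p]) ^ k * t‖ < δ := by
  have h1 : ‖(p : ℤ_[p])‖ < 1 := by
    rw [PadicInt.norm_p]
    exact inv_lt_one_of_one_lt₀ (by exact_mod_cast (Fact.out : p.Prime).one_lt)
  obtain ⟨k, hk⟩ := exists_pow_lt_of_lt_one hδ h1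
  refine ⟨k, fun t => lt_of_le_of_lt ?_ hk⟩
  rw [norm_mul, norm_pow]
  exact mul_le_of_le_one_right (by positivity) (PadicInt.norm_le_one t)

theorem tube_small {p : ℕ} [Fact p.Prime] {M : Type} [TopologicalSpace M] {A : ℤ_[p] → M → M}
    (hA : IsAct A) (e : OpenPartialHomeomorph M (ι → ℝ)) {c : ι → ℝ} (hc : c ∈ e.target) :
    ∃ (k : ℕ) (r : ℝ), 0 < r ∧ closedBall c r ⊆ e.target ∧
      (∀ t, ∀ y ∈ closedBall c r, A ((p : ℤ_[p]) ^ k * t) (e.symm y) ∈ e.source) ∧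
      ∀ t, e (A ((p : ℤ_[p]) ^ k * t) (e.symm c)) ∈ ball c r := by
  have hs : e.symm c ∈ e.source := e.map_target hc
  have h1 : ContinuousAt (fun q : ℤ_[p] × (ι → ℝ) => A q.1 (e.symm q.2)) (0, c) :=
    ContinuousAt.comp (f := fun q : ℤ_[p] × (ι → ℝ) => (q.1, e.symm q.2))
      (g := fun q : ℤ_[p] × M => A q.1 q.2) hA.1.continuousAt
      (continuousAt_fst.prodMk (ContinuousAt.comp (f := fun q : ℤ_[p] × (ι → ℝ) => q.2)
        (e.continuousAt_symm hc) continuousAt_snd))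
  have h2 : ∀ᶠ q : ℤ_[p] × (ι → ℝ) in 𝓝 (0, c), A q.1 (e.symm q.2) ∈ e.source :=
    h1.eventually (e.open_source.mem_nhds (by simpa only [hA.2.1] using hs))
  have h3 : ∀ᶠ q : ℤ_[p] × (ι → ℝ) in 𝓝 (0, c), q.2 ∈ e.target :=
    (continuousAt_snd (p := ((0 : ℤ_[p]), c))).eventually (e.open_target.mem_nhds hc)
  obtain ⟨δ, hδ, h4⟩ := Metric.eventually_nhds_iff.1 (h2.and h3)
  have h5 : ContinuousAt (fun t : ℤ_[p] => e (A t (e.symm c))) 0 :=
    ContinuousAt.comp (f := fun t : ℤ_[p] => A t (e.symm c))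
      (e.continuousAt (by simpa only [hA.2.1] using hs))
      (hA.1.comp (continuous_id.prodMk continuous_const)).continuousAt
  have h6 : ∀ᶠ t : ℤ_[p] in 𝓝 0, e (A t (e.symm c)) ∈ ball c (δ / 2) :=
    h5.eventually (isOpen_ball.mem_nhds (by
      simp only [hA.2.1, e.right_inv hc]
      exact mem_ball_self (by positivity)))
  obtain ⟨η, hη, h7⟩ := Metric.eventually_nhds_iff.1 h6
  obtain ⟨k, hk⟩ := tube_pow (p := p) (lt_min hδ hη)
  have key : ∀ s : ℤ_[p], ‖s‖ < δ → ∀ y ∈ closedBall c (δ / 2),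
      A s (e.symm y) ∈ e.source ∧ y ∈ e.target := by
    intro s hs y hy
    refine h4 (y := (s, y)) ?_
    rw [Prod.dist_eq, max_lt_iff, dist_zero_right]
    exact ⟨hs, lt_of_le_of_lt (mem_closedBall.1 hy) (by linarith)⟩
  refine ⟨k, δ / 2, by positivity, fun y hy => (key 0 (by simpa using hδ) y hy).2,
    fun t y hy => (key _ ((hk t).trans_le (min_le_left _ _)) y hy).1, fun t => h7 ?_⟩
  rw [dist_zero_right]
  exact (hk t).trans_le (min_le_right _ _)

theorem tube_fixed {p : ℕ} [Fact p.Prime] {M : Type} [TopologicalSpace M] {A : ℤ_[p] → M → M}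
    (hA : IsAct A) (e : OpenPartialHomeomorph M (ι → ℝ)) {c : ι → ℝ} (hc : c ∈ e.target)
    (hfix : ∀ t, A t (e.symm c) = e.symm c) {N : Set M} (hN : N ∈ 𝓝 (e.symm c)) :
    ∃ r : ℝ, 0 < r ∧ closedBall c r ⊆ e.target ∧ (∀ y ∈ closedBall c r, e.symm y ∈ N) ∧
      (∀ t, ∀ y ∈ closedBall c r, A t (e.symm y) ∈ e.source) ∧
      ∀ t, e (A t (e.symm c)) ∈ ball c r := by
  have hs : e.symm c ∈ e.source := e.map_target hc
  have h2 : ∀ᶠ y in 𝓝 c, ∀ t ∈ (univ : Set ℤ_[p]), A t (e.symm y) ∈ e.source := by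
    refine isCompact_univ.eventually_forall_of_forall_eventually fun t _ => ?_
    have h1 : ContinuousAt (fun q : (ι → ℝ) × ℤ_[p] => A q.2 (e.symm q.1)) (c, t) :=
      ContinuousAt.comp (f := fun q : (ι → ℝ) × ℤ_[p] => (q.2, e.symm q.1))
        (g := fun q : ℤ_[p] × M => A q.1 q.2) hA.1.continuousAt
        (continuousAt_snd.prodMk (ContinuousAt.comp (f := fun q : (ι → ℝ) × ℤ_[p] => q.1)
          (e.continuousAt_symm hc) continuousAt_fst))
    exact h1.eventually (e.open_source.mem_nhds (by simpa only [hfix] using hs))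
  have h3 : ∀ᶠ y in 𝓝 c, y ∈ e.target := e.open_target.mem_nhds hc
  have h4 : ∀ᶠ y in 𝓝 c, e.symm y ∈ N := (e.continuousAt_symm hc).eventually hN
  obtain ⟨r, hr, h5⟩ := Metric.nhds_basis_closedBall.eventually_iff.1 (h2.and (h3.and h4))
  refine ⟨r, hr, fun y hy => (h5 hy).2.1, fun y hy => (h5 hy).2.2,
    fun t y hy => (h5 hy).1 t (mem_univ t), fun t => ?_⟩
  rw [hfix, e.right_inv hc]
  exact mem_ball_self hr

end Vale.Agent.P228S
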