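import Vale.Agent.P228S.LStepA
import Vale.Agent.P228S.Model
import Vale.Agent.P228S.Trans
import Vale.Agent.P228S.Tube

namespace Vale.Agent.P228S

open MeasureTheory Set Metric Filter Topology Vale.Agent.Lib.Degree Vale.Agent.P228

variable {ι : Type} [Fintype ι] [DecidableEq ι]

theorem local_fix {n p : ℕ} [Fact p.Prime] {M : Type} [TopologicalSpace M]
    [ChartedSpace (Fin n → ℝ) M] {A : ℤ_[p] → M → M} (hA : IsAct A) (h : ∀ t, SobReg n (A t))
    (x0 : M) : ∃ j : ℕ, ∀ᶠ x in 𝓝 x0, ∀ t, A ((p : ℤ_[p]) ^ j * t) x = x := by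
  set e := chartAt (Fin n → ℝ) x0 with he
  have hx0 : x0 ∈ e.source := mem_chart_source _ x0
  have hc : e x0 ∈ e.target := e.map_source hx0
  obtain ⟨k, r, hr, h1, h2, h3⟩ := tube_small hA e hc
  have hB : IsAct fun t : ℤ_[p] => A ((p : ℤ_[p]) ^ k * t) :=
    ⟨hA.1.comp ((continuous_const.mul continuous_fst).prodMk continuous_snd),
      fun x => by simp only [mul_zero, hA.2.1], fun s t x => by simp only [mul_add, hA.2.2]⟩
  obtain ⟨l, hl, hlr, hm⟩ := exists_model hB e (e x0) hr h1 h2 h3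
  obtain ⟨a, U, B, ha, hU, -, heq⟩ := hm l hl le_rfl
  have hsub : closedBall (e x0) (2 * (17 * l)) ⊆ closedBall (e x0) r :=
    closedBall_subset_closedBall (by linarith)
  have hs := fun t => h ((p : ℤ_[p]) ^ k * t) e (chart_mem_atlas _ x0) (e x0) (17 * l)
    (by positivity) (hsub.trans h1) fun y hy => h2 t y (hsub hy)
  have h0 : 0 < Fintype.card (Fin n) := by
    obtain ⟨C, q, β, hq, hqn, -⟩ := hs 0
    rw [Fintype.card_fin]
    exact_mod_cast hq.trans_le hqn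
  obtain ⟨j, hj⟩ := fixL h0 ha hU fun t => by
    obtain ⟨C, q, β, hq, hqn, hβ, hC⟩ := hs t
    obtain ⟨C', hC'⟩ := reg_of_chart (g := fun y => e (A ((p : ℤ_[p]) ^ k * t) (e.symm y)))
      (f := a t) (ha.1.comp (continuous_const.prodMk continuous_id)) (e x0) hl (heq t) hq
      (by rwa [Fintype.card_fin]) hC
    exact ⟨C', β, by rwa [Fintype.card_fin], hC'⟩
  refine ⟨k + j, ?_⟩
  have hn1 : ∀ᶠ x in 𝓝 x0, x ∈ e.source := e.open_source.mem_nhds hx0
  have hn2 : ∀ᶠ x in 𝓝 x0, e x ∈ closedBall (e x0) l :=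
    (e.continuousAt hx0) (closedBall_mem_nhds _ hl)
  filter_upwards [hn1, hn2] with x hx hxl t
  have hy : ‖l⁻¹ • (e x - e x0)‖ ≤ 1 := by
    rw [norm_smul, norm_inv, Real.norm_of_nonneg hl.le, inv_mul_le_iff₀ hl, mul_one]
    rwa [mem_closedBall, dist_eq_norm] at hxl
  have hy2 : e x0 + l • l⁻¹ • (e x - e x0) = e x := by
    rw [smul_inv_smul₀ hl.ne', add_sub_cancel]
  have h4 := heq ((p : ℤ_[p]) ^ j * t) _ (hy.trans (by norm_num))
  rw [hj t _ hy, hy2, e.left_inv hx] at h4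
  have h5 := h2 ((p : ℤ_[p]) ^ j * t) (e x) (closedBall_subset_closedBall (by linarith) hxl)
  rw [e.left_inv hx] at h5
  rw [pow_add, mul_assoc]
  exact e.injOn h5 hx h4.symm

end Vale.Agent.P228S
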