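import Vale.Agent.P228S.MA
import Vale.Agent.P228S.LNew

namespace Vale.Agent.P228S

open MeasureTheory Set Metric Filter Topology Vale.Agent.Lib.Degree Vale.Agent.P228

variable {ι : Type} [Fintype ι] [DecidableEq ι]

theorem newman {n p : ℕ} [Fact p.Prime] {M : Type} [TopologicalSpace M] [T2Space M]
    [ChartedSpace (Fin n → ℝ) M] {A : ℤ_[p] → M → M} (hA : IsAct A) (h : ∀ t, SobReg n (A t))
    {x0 : M} (hx : x0 ∈ closure (interior {x | ∀ t, A t x = x})) :
    x0 ∈ interior {x | ∀ t, A t x = x} := by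
  have hcl : IsClosed {x | ∀ t, A t x = x} := by
    simp only [Set.ofPred_forall]
    exact isClosed_iInter fun t =>
      isClosed_eq (hA.1.comp (continuous_const.prodMk continuous_id)) continuous_id
  have hx0 : ∀ t, A t x0 = x0 := closure_minimal interior_subset hcl hx
  obtain ⟨e, he, hs⟩ : ∃ e ∈ atlas (Fin n → ℝ) M, x0 ∈ e.source :=
    ⟨chartAt _ x0, chart_mem_atlas _ x0, mem_chart_source _ x0⟩
  rcases Nat.eq_zero_or_pos n with rfl | hn
  · refine mem_interior_iff_mem_nhds.2 (mem_of_superset (e.open_source.mem_nhds hs) fun x hx' => ?_)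
    have : x = x0 := e.injOn hx' hs (Subsingleton.elim _ _)
    rw [this]
    exact hx0
  have hc : e x0 ∈ e.target := e.map_source hs
  have hce : e.symm (e x0) = x0 := e.left_inv hs
  obtain ⟨j, hj⟩ := local_fix hA h x0
  obtain ⟨r, hr, r1, r2, r3, r4⟩ := tube_fixed hA e hc (fun t => by rw [hce, hx0])
    (N := {x | ∀ t, A ((p : ℤ_[p]) ^ j * t) x = x}) (by rw [hce]; exact hj)
  obtain ⟨l, hl, hlr, hm⟩ := exists_model hA e (e x0) hr r1 r3 r4
  obtain ⟨a, U, B, hloc, hU, hB, ha⟩ := hm l hl le_rfl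
  have hin : ∀ x : Fin n → ℝ, ‖x‖ ≤ 40 → e x0 + l • x ∈ closedBall (e x0) r := by
    intro x hx'
    rw [mem_closedBall, dist_eq_norm, add_sub_cancel_left, norm_smul, Real.norm_eq_abs,
      abs_of_pos hl]
    nlinarith
  have hcan : ∀ u v : Fin n → ℝ, e x0 + l • u = e x0 + l • v → u = v := fun u v huv =>
    smul_right_injective _ hl.ne' (add_left_cancel huv)
  have hcard : Fintype.card (Fin n) = n := Fintype.card_fin n
  have hsub : closedBall (e x0) (2 * (17 * l)) ⊆ closedBall (e x0) r :=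
    closedBall_subset_closedBall (by linarith)
  obtain ⟨C, β, hβ, hreg⟩ := reg_unif (a := a) (by rw [hcard]; exact hn) j
    (fun s t x hx' => hcan _ _ (by
      rw [ha _ x hx', ha _ x hx', hA.2.2, r2 _ (hin x hx') t]))
    (fun t => by
      obtain ⟨C, q, β, hq, hqn, hβ, hint⟩ := h t e he (e x0) (17 * l) (by positivity)
        (hsub.trans r1) fun y hy => r3 t y (hsub hy)
      obtain ⟨C', hC'⟩ := reg_of_chart (g := fun y => e (A t (e.symm y))) (f := a t)
        (hloc.1.comp (continuous_const.prodMk continuous_id)) (e x0) hl (ha t) hq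
        (by rw [hcard]; exact hqn) hint
      exact ⟨C', β, by rw [hcard]; exact hβ, hC'⟩)
  have hiff : ∀ x : Fin n → ℝ, ‖x‖ ≤ 40 → ((∀ t, a t x = x) ↔
      ∀ t, A t (e.symm (e x0 + l • x)) = e.symm (e x0 + l • x)) := by
    intro x hx'
    refine forall_congr' fun t => ⟨fun h1 => ?_, fun h1 => hcan _ _ ?_⟩
    · have h2 := ha t x hx'
      rw [h1] at h2
      conv_rhs => rw [h2]
      exact (e.left_inv (r3 t _ (hin x hx'))).symm
    · rw [ha t x hx', h1, e.right_inv (r1 (hin x hx'))]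
  have hΨ : Tendsto (fun m : M => l⁻¹ • (e m - e x0)) (𝓝 x0) (𝓝 0) := by
    have h1 : Tendsto (fun m : M => l⁻¹ • (e m - e x0)) (𝓝 x0) (𝓝 (l⁻¹ • (e x0 - e x0))) :=
      ((e.continuousAt hs).tendsto.sub_const _).const_smul _
    rwa [sub_self, smul_zero] at h1
  have hback : ∀ m ∈ e.source, e.symm (e x0 + l • l⁻¹ • (e m - e x0)) = m := by
    intro m hm'
    rw [smul_inv_smul₀ hl.ne', add_sub_cancel, e.left_inv hm']
  have hev : ∀ᶠ m in 𝓝 x0, m ∈ e.source ∧ l⁻¹ • (e m - e x0) ∈ ball (0 : Fin n → ℝ) 40 :=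
    (show ∀ᶠ m in 𝓝 x0, m ∈ e.source from e.open_source.mem_nhds hs).and
      (hΨ.eventually (ball_mem_nhds _ (by norm_num)))
  have h0 : (0 : Fin n → ℝ) ∈ closure (interior {x | ∀ t, a t x = x}) := by
    rw [mem_closure_iff_frequently] at hx ⊢
    refine hΨ.frequently ((hx.and_eventually hev).mono fun m hm' => ?_)
    obtain ⟨m1, m2, m3⟩ := hm'
    have m4 : ‖l⁻¹ • (e m - e x0)‖ ≤ 40 := (mem_ball_zero_iff.1 m3).le
    have c1 : ContinuousAt (fun x : Fin n → ℝ => e.symm (e x0 + l • x)) (l⁻¹ • (e m - e x0)) :=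
      ContinuousAt.comp (f := fun x : Fin n → ℝ => e x0 + l • x)
        (e.continuousAt_symm (r1 (hin _ m4))) (by fun_prop)
    have c2 : ∀ᶠ x in 𝓝 (l⁻¹ • (e m - e x0)), e.symm (e x0 + l • x) ∈ {x | ∀ t, A t x = x} :=
      c1.eventually (by
        show {x | ∀ t, A t x = x} ∈ 𝓝 (e.symm (e x0 + l • l⁻¹ • (e m - e x0)))
        rw [hback m m2]
        exact mem_interior_iff_mem_nhds.1 m1)
    refine mem_interior_iff_mem_nhds.2 ?_
    filter_upwards [c2, isOpen_ball.mem_nhds m3] with x x1 x2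
    exact (hiff x (mem_ball_zero_iff.1 x2).le).2 x1
  have h1 := newmanL hloc hU hB hβ hreg h0
  refine mem_interior_iff_mem_nhds.2 ?_
  filter_upwards [hev, hΨ.eventually (mem_interior_iff_mem_nhds.1 h1)] with m m1 m2
  have h2 := (hiff _ (mem_ball_zero_iff.1 m1.2).le).1 m2
  rwa [hback m m1.1] at h2

end Vale.Agent.P228S
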