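import Vale.Agent.P228S.MB

namespace Vale.Agent.P228S

open MeasureTheory Set Metric Filter Topology Vale.Agent.Lib.Degree Vale.Agent.P228

variable {ι : Type} [Fintype ι] [DecidableEq ι]

theorem main {n p : ℕ} [Fact p.Prime] {M : Type} [TopologicalSpace M] [T2Space M]
    [ConnectedSpace M] [ChartedSpace (Fin n → ℝ) M] {A : ℤ_[p] → M → M} (hA : IsAct A)
    (h : ∀ t, SobReg n (A t)) : ∃ k : ℕ, ∀ t x, A ((p : ℤ_[p]) ^ k * t) x = x := by
  obtain ⟨x0⟩ := (inferInstance : Nonempty M)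
  obtain ⟨j, hj⟩ := local_fix hA h x0
  have hB : IsAct fun t : ℤ_[p] => A ((p : ℤ_[p]) ^ j * t) :=
    ⟨hA.1.comp ((continuous_const.mul continuous_fst).prodMk continuous_snd),
      fun x => by simp only [mul_zero, hA.2.1], fun s t x => by simp only [mul_add, hA.2.2]⟩
  have hcl : IsClopen (interior {x | ∀ t, (fun t : ℤ_[p] => A ((p : ℤ_[p]) ^ j * t)) t x = x}) :=
    ⟨closure_subset_iff_isClosed.1 fun x hx => newman hB (fun t => h _) hx, isOpen_interior⟩
  have hu := hcl.eq_univ ⟨x0, mem_interior_iff_mem_nhds.2 hj⟩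
  refine ⟨j, fun t x => ?_⟩
  have : x ∈ interior {x | ∀ t, (fun t : ℤ_[p] => A ((p : ℤ_[p]) ^ j * t)) t x = x} :=
    hu ▸ mem_univ x
  exact interior_subset this t

end Vale.Agent.P228S
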